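import Vale.Agent.P018.H867S.Pow

/-!
# P018, H26: the sieve with a power saving error term, when only some of the primes are used:
`V X p` says that the prime `p` is used at `X` (all `p ≤ X` are).
-/

namespace Vale.Agent.P018.R2.H26

open Filter Topology Vale.Agent.P018.H867 Vale.Agent.P018.H867S

/-- the condition `B`, for the primes in `V` only. -/
def BV (B : ℕ → ℕ → Prop) (V : ℕ → Prop) (p n : ℕ) : Prop := V p ∧ B p n

section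
variable {B : ℕ → ℕ → Prop} {K : ℕ}

theorem rB_BV_le (V : ℕ → Prop) (p : ℕ) : rB (BV B V) K p ≤ rB B K p := by
  classical
  unfold rB
  refine Finset.card_le_card fun n hn => ?_
  rw [Finset.mem_filter] at hn ⊢
  exact ⟨hn.1, hn.2.2⟩

theorem rB_BV_zero (V : ℕ → Prop) (p : ℕ) (h : ¬ V p) : rB (BV B V) K p = 0 := by
  classical
  unfold rB
  rw [Finset.card_eq_zero, Finset.filter_eq_empty_iff]
  exact fun n _ hn => h hn.1

theorem rB_BV_eq (V : ℕ → Prop) (p : ℕ) (h : V p) : rB (BV B V) K p = rB B K p := by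
  classical
  unfold rB
  congr 1
  ext n
  rw [Finset.mem_filter, Finset.mem_filter]
  exact ⟨fun hn => ⟨hn.1, hn.2.2⟩, fun hn => ⟨hn.1, h, hn.2⟩⟩

theorem nT_BV (V : ℕ → Prop) {D X : ℕ} (T : Finset ℕ)
    (h : |(nT B T X : ℝ) - X * gT B K T| ≤ (D : ℝ) ^ T.card) :
    |(nT (BV B V) T X : ℝ) - X * gT (BV B V) K T| ≤ (D : ℝ) ^ T.card := by
  classical
  by_cases hV : ∀ p ∈ T, V p
  · have h1 : nT (BV B V) T X = nT B T X := by
      unfold nT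
      congr 1
      ext n
      rw [Finset.mem_filter, Finset.mem_filter]
      exact ⟨fun hn => ⟨hn.1, fun p hp => (hn.2 p hp).2⟩,
        fun hn => ⟨hn.1, fun p hp => ⟨hV p hp, hn.2 p hp⟩⟩⟩
    have h2 : gT (BV B V) K T = gT B K T := by
      unfold gT
      exact Finset.prod_congr rfl fun p hp => by rw [rB_BV_eq V p (hV p hp)]
    rw [h1, h2]
    exact h
  · push Not at hV
    obtain ⟨q, hq, hqV⟩ := hV
    have h1 : nT (BV B V) T X = 0 := by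
      unfold nT
      rw [Finset.card_eq_zero, Finset.filter_eq_empty_iff]
      exact fun n _ hn => hqV (hn q hq).1
    have h2 : gT (BV B V) K T = 0 := by
      unfold gT
      exact Finset.prod_eq_zero hq (by rw [rB_BV_zero V q hqV]; simp)
    rw [h1, h2]
    simp

open Classical in
/-- **the effective sieve with a power saving.** -/
theorem abs_trunc_gen (hK : 2 ≤ K) (hper : ∀ p : ℕ, p.Prime → ∀ n, B p (n + p ^ K) ↔ B p n)
    {D : ℕ} {e : ℝ} (he : 0 < e) (he1 : e < 1)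
    (hr : ∀ p : ℕ, p.Prime → (rB B K p : ℝ) / (p : ℝ) ^ K ≤ D / (p : ℝ) ^ 2)
    (hT : ∀ T : Finset ℕ, (∀ p ∈ T, p.Prime) → ∀ X : ℕ,
      |(((Finset.Icc 1 X).filter (fun n => ∀ p ∈ T, B p n)).card : ℝ) -
        X * ∏ p ∈ T, ((rB B K p : ℝ) / (p : ℝ) ^ K)| ≤ (D : ℝ) ^ T.card)
    (hlt : ∀ p : ℕ, p.Prime → rB B K p < p ^ K) :
    ∃ d' C' : ℝ, 0 < d' ∧ 0 ≤ C' ∧ ∀ X : ℕ, 1 ≤ X → ∀ V : ℕ → Prop, (∀ p : ℕ, p ≤ X → V p) →
      |(cB (BV B V) X : ℝ) - dB B K * X| ≤ C' * (X : ℝ) ^ (1 - d') + tB2 (BV B V) e X := by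
  set D' : ℕ := D + 1 with hD'
  have hD1 : 1 ≤ D' := by omega
  have hDD' : (D : ℝ) ≤ D' := by rw [hD']; push_cast; linarith
  have hD0 : (0 : ℝ) ≤ D := Nat.cast_nonneg _
  have hr' : ∀ p : ℕ, p.Prime → (rB B K p : ℝ) / (p : ℝ) ^ K ≤ D' / (p : ℝ) ^ 2 :=
    fun p hp => (hr p hp).trans (div_le_div_of_nonneg_right hDD' (by positivity))
  have hT' : ∀ X : ℕ, ∀ T : Finset ℕ, (∀ p ∈ T, p.Prime) →
      |(nT B T X : ℝ) - X * gT B K T| ≤ (D' : ℝ) ^ T.card := fun X T h =>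
    (hT T h X).trans (pow_le_pow_left₀ hD0 hDD' _)
  obtain ⟨-, -, hz⟩ := dB_spec (B := B) (K := K) (D := (D' : ℝ)) (Nat.cast_nonneg _) hlt hr'
  set C2 : ℝ := ((2 * D' : ℕ) : ℝ) ^ ((2 * D') ^ 2) with hC2
  have hC20 : 0 ≤ C2 := by positivity
  set d' : ℝ := min (1 / 6) e with hd'
  have hd'0 : 0 < d' := lt_min (by norm_num) he
  refine ⟨d', 20 * C2 + 5 * D', hd'0, by positivity, ?_⟩
  intro X hX V hV
  have hX1 : (1 : ℝ) ≤ X := by exact_mod_cast hX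
  have hX0 : (0 : ℝ) < X := by linarith
  set z : ℕ := ⌈(X : ℝ) ^ (1 / 6 : ℝ)⌉₊ with hzd
  set Y : ℕ := ⌈(X : ℝ) ^ (1 / 3 : ℝ)⌉₊ with hYd
  have h6 : (1 : ℝ) ≤ (X : ℝ) ^ (1 / 6 : ℝ) := Real.one_le_rpow hX1 (by norm_num)
  have h3 : (1 : ℝ) ≤ (X : ℝ) ^ (1 / 3 : ℝ) := Real.one_le_rpow hX1 (by norm_num)
  have hz1 : 1 ≤ z := Nat.one_le_iff_ne_zero.2 (by
    rw [hzd, Ne, Nat.ceil_eq_zero]; linarith)
  have hY1 : 1 ≤ Y := Nat.one_le_iff_ne_zero.2 (by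
    rw [hYd, Ne, Nat.ceil_eq_zero]; linarith)
  have hzl : (X : ℝ) ^ (1 / 6 : ℝ) ≤ z := Nat.le_ceil _
  have hYl : (X : ℝ) ^ (1 / 3 : ℝ) ≤ Y := Nat.le_ceil _
  have hzu : (z : ℝ) ≤ 2 * (X : ℝ) ^ (1 / 6 : ℝ) := by
    have := Nat.ceil_lt_add_one (show (0 : ℝ) ≤ (X : ℝ) ^ (1 / 6 : ℝ) by positivity)
    rw [← hzd] at this
    linarith
  have hYu : (Y : ℝ) ≤ 2 * (X : ℝ) ^ (1 / 3 : ℝ) := by
    have := Nat.ceil_lt_add_one (show (0 : ℝ) ≤ (X : ℝ) ^ (1 / 3 : ℝ) by positivity)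
    rw [← hYd] at this
    linarith
  have hz0 : (0 : ℝ) < z := by linarith
  have hY0 : (0 : ℝ) < Y := by linarith
  -- the target
  set Q : ℝ := (X : ℝ) ^ (1 - d') with hQ
  have hQ0 : 0 < Q := Real.rpow_pos_of_pos hX0 _
  have hle : ∀ a : ℝ, d' ≤ a → (X : ℝ) ^ (1 - a) ≤ Q := fun a ha =>
    Real.rpow_le_rpow_of_exponent_le hX1 (by linarith)
  have hQ6 : (X : ℝ) ^ (1 - 1 / 6 : ℝ) ≤ Q := hle _ (min_le_left _ _)
  have hQe : (X : ℝ) ^ (1 - e) ≤ Q := hle _ (min_le_right _ _)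
  have hXz : (X : ℝ) / z ≤ Q := by
    refine le_trans ?_ hQ6
    rw [div_le_iff₀ hz0]
    calc (X : ℝ) = (X : ℝ) ^ (1 - 1 / 6 : ℝ) * (X : ℝ) ^ (1 / 6 : ℝ) := by
          rw [← Real.rpow_add hX0]; norm_num
      _ ≤ _ := by gcongr
  have hXY : (X : ℝ) / Real.sqrt Y ≤ Q := by
    refine le_trans ?_ hQ6
    have hsY : 0 < Real.sqrt Y := Real.sqrt_pos.2 hY0
    rw [div_le_iff₀ hsY]
    have h1 : (X : ℝ) ^ (1 / 6 : ℝ) ≤ Real.sqrt Y := by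
      refine Real.le_sqrt_of_sq_le ?_
      rw [← Real.rpow_natCast, ← Real.rpow_mul hX0.le]
      norm_num
      norm_num at hYl
      exact hYl
    calc (X : ℝ) = (X : ℝ) ^ (1 - 1 / 6 : ℝ) * (X : ℝ) ^ (1 / 6 : ℝ) := by
          rw [← Real.rpow_add hX0]; norm_num
      _ ≤ _ := by gcongr
  have hYz : ((Y * z : ℕ) : ℝ) * Real.sqrt ((Y * z : ℕ) : ℝ) ≤ 8 * Q := by
    have h1 : ((Y * z : ℕ) : ℝ) ≤ 4 * (X : ℝ) ^ (1 / 2 : ℝ) := by
      push_cast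
      calc (Y : ℝ) * z ≤ (2 * (X : ℝ) ^ (1 / 3 : ℝ)) * (2 * (X : ℝ) ^ (1 / 6 : ℝ)) := by gcongr
        _ = 4 * ((X : ℝ) ^ (1 / 3 : ℝ) * (X : ℝ) ^ (1 / 6 : ℝ)) := by ring
        _ = 4 * (X : ℝ) ^ (1 / 2 : ℝ) := by rw [← Real.rpow_add hX0]; norm_num
    have h2 : Real.sqrt ((Y * z : ℕ) : ℝ) ≤ 2 * (X : ℝ) ^ (1 / 4 : ℝ) := by
      refine Real.sqrt_le_iff.2 ⟨by positivity, h1.trans (le_of_eq ?_)⟩
      rw [mul_pow, ← Real.rpow_natCast ((X : ℝ) ^ (1 / 4 : ℝ)), ← Real.rpow_mul hX0.le]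
      norm_num
    calc ((Y * z : ℕ) : ℝ) * Real.sqrt ((Y * z : ℕ) : ℝ) ≤
        (4 * (X : ℝ) ^ (1 / 2 : ℝ)) * (2 * (X : ℝ) ^ (1 / 4 : ℝ)) := by gcongr
      _ = 8 * ((X : ℝ) ^ (1 / 2 : ℝ) * (X : ℝ) ^ (1 / 4 : ℝ)) := by ring
      _ = 8 * (X : ℝ) ^ (3 / 4 : ℝ) := by rw [← Real.rpow_add hX0]; norm_num
      _ ≤ 8 * Q := by
          have : (X : ℝ) ^ (3 / 4 : ℝ) ≤ (X : ℝ) ^ (1 - 1 / 6 : ℝ) :=
            Real.rpow_le_rpow_of_exponent_le hX1 (by norm_num)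
          linarith
  -- the pieces
  set P := (Finset.range z).filter Nat.Prime with hP
  have hPp : ∀ p ∈ P, p.Prime ∧ p ≤ z := fun p hp => by
    rw [hP, Finset.mem_filter, Finset.mem_range] at hp
    exact ⟨hp.2, hp.1.le⟩
  have e1 := sieve_main hD1 hr' (hT' X) hPp hY1 hz1
  have e2 := hz z hz1
  have hr2 : ∀ p : ℕ, p.Prime → (rB (BV B V) K p : ℝ) / (p : ℝ) ^ K ≤ D' / (p : ℝ) ^ 2 := by
    intro p hp
    refine le_trans ?_ (hr' p hp)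
    have h1 : (rB (BV B V) K p : ℝ) ≤ rB B K p := by exact_mod_cast rB_BV_le V p
    gcongr
  have e3 := sieve_diff2 hr2 (fun T h => nT_BV V T (hT' X T h)) z hz1 e
  have hzX : ∀ p ∈ (Finset.range z).filter Nat.Prime, V p := by
    intro p hp
    rw [Finset.mem_filter, Finset.mem_range] at hp
    refine hV p ?_
    have h1 : (p : ℝ) < (X : ℝ) ^ (1 / 6 : ℝ) := Nat.lt_ceil.1 hp.1
    have h2 : (X : ℝ) ^ (1 / 6 : ℝ) ≤ X := by
      calc (X : ℝ) ^ (1 / 6 : ℝ) ≤ (X : ℝ) ^ (1 : ℝ) :=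
            Real.rpow_le_rpow_of_exponent_le hX1 (by norm_num)
        _ = X := Real.rpow_one _
    have h3 : (p : ℝ) ≤ X := by linarith
    exact_mod_cast h3
  have hs : ∑ n ∈ Finset.Icc 1 X, ∏ p ∈ (Finset.range z).filter Nat.Prime, iB (BV B V) p n =
      ∑ n ∈ Finset.Icc 1 X, ∏ p ∈ (Finset.range z).filter Nat.Prime, iB B p n := by
    refine Finset.sum_congr rfl fun n _ => Finset.prod_congr rfl fun p hp => ?_
    have h1 := hzX p hp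
    unfold iB BV
    simp only [h1, true_and]
  rw [hs] at e3
  have hprod : ∏ n ∈ Finset.range z, lB B K n =
      ∏ p ∈ P, (1 - (rB B K p : ℝ) / (p : ℝ) ^ K) := by
    rw [hP, Finset.prod_filter]
    refine Finset.prod_congr rfl fun n _ => ?_
    unfold lB
    rfl
  rw [hprod] at e2
  set s1 := ∑ n ∈ Finset.Icc 1 X, ∏ p ∈ P, iB B p n with hs1
  set p1 := ∏ p ∈ P, (1 - (rB B K p : ℝ) / (p : ℝ) ^ K) with hp1
  have f1 : |s1 - X * p1| ≤ 20 * C2 * Q := by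
    refine e1.trans ?_
    have g1 : (X : ℝ) * (2 / Real.sqrt Y) = 2 * (X / Real.sqrt Y) := by ring
    rw [g1]
    calc 2 * (C2 * (2 * ((X : ℝ) / Real.sqrt Y) + ((Y * z : ℕ) : ℝ) *
        Real.sqrt ((Y * z : ℕ) : ℝ))) ≤ 2 * (C2 * (2 * Q + 8 * Q)) := by gcongr
      _ = 20 * C2 * Q := by ring
  have f2 : |(X : ℝ) * p1 - dB B K * X| ≤ 2 * D' * Q := by
    have : (X : ℝ) * p1 - dB B K * X = X * (p1 - dB B K) := by ring
    rw [this, abs_mul, abs_of_pos hX0]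
    calc (X : ℝ) * |p1 - dB B K| ≤ X * (D' * (2 / z)) := by gcongr
      _ = 2 * D' * (X / z) := by ring
      _ ≤ 2 * D' * Q := by gcongr
  have f3 : |(cB (BV B V) X : ℝ) - s1| ≤ (3 * D') * Q + tB2 (BV B V) e X := by
    refine e3.trans ?_
    have g1 : (D' : ℝ) * (2 / z) * X ≤ 2 * D' * Q := by
      calc (D' : ℝ) * (2 / z) * X = 2 * D' * (X / z) := by ring
        _ ≤ 2 * D' * Q := by gcongr
    have g2 : (D' : ℝ) * (X : ℝ) ^ (1 - e) ≤ D' * Q := by gcongr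
    linarith
  calc |(cB (BV B V) X : ℝ) - dB B K * X|
      = |((cB (BV B V) X : ℝ) - s1) + (s1 - X * p1) + (X * p1 - dB B K * X)| := by
        congr 1
        ring
    _ ≤ |(cB (BV B V) X : ℝ) - s1| + |s1 - X * p1| + |X * p1 - dB B K * X| := abs_add_three _ _ _
    _ ≤ (20 * C2 + 5 * D') * Q + tB2 (BV B V) e X := by linarith


/-- **the effective sieve with a power saving**, a bounded number of excluded residues, only the
primes in `V` are used. -/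
theorem abs_trunc (hK : 2 ≤ K) (hper : ∀ p : ℕ, p.Prime → ∀ n, B p (n + p ^ K) ↔ B p n)
    {D : ℕ} {e : ℝ} (he : 0 < e) (he1 : e < 1)
    (hD : ∀ p : ℕ, p.Prime → rB B K p ≤ D)
    (hlt : ∀ p : ℕ, p.Prime → rB B K p < p ^ K) :
    ∃ d' C' : ℝ, 0 < d' ∧ 0 ≤ C' ∧ ∀ X : ℕ, 1 ≤ X → ∀ V : ℕ → Prop, (∀ p : ℕ, p ≤ X → V p) →
      |(cB (BV B V) X : ℝ) - dB B K * X| ≤ C' * (X : ℝ) ^ (1 - d') + tB2 (BV B V) e X := by
  refine abs_trunc_gen hK hper (D := D) he he1 ?_ ?_ hlt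
  · intro p hp
    have hp1 : (1 : ℝ) ≤ p := by exact_mod_cast hp.one_lt.le
    have hpK : (p : ℝ) ^ 2 ≤ (p : ℝ) ^ K := pow_le_pow_right₀ hp1 hK
    have hD' : (rB B K p : ℝ) ≤ D := by exact_mod_cast hD p hp
    have hp2 : (0 : ℝ) < (p : ℝ) ^ 2 := by positivity
    calc (rB B K p : ℝ) / (p : ℝ) ^ K ≤ D / (p : ℝ) ^ K := by gcongr
      _ ≤ D / (p : ℝ) ^ 2 := by gcongr
  · intro T hT X
    have := nT_bound hper hD T hT X
    unfold nT gT at this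
    convert this

end

end Vale.Agent.P018.R2.H26
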