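import Vale.Agent.P018.Base

/-! # P018, H26: primes in ranges of exponents, the objects in the statement (`rho`, `PowerFree`,
`countPF`, `density` are in `P018.Base`). -/

namespace Vale.Agent.P018.R2.H26

open Polynomial

open Classical in
/-- the number of `1 ≤ n ≤ X` such that `p ^ k ∣ f(n)` for no prime `p ≤ X ^ s`. -/
noncomputable def countUpTo (f : ℤ[X]) (k : ℕ) (s : ℝ) (X : ℕ) : ℕ :=
  ((Finset.Icc 1 X).filter (fun n : ℕ => ∀ p : ℕ, p.Prime → (p : ℝ) ≤ (X : ℝ) ^ s →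
    ¬ (p : ℤ) ^ k ∣ f.eval (n : ℤ))).card

open Classical in
/-- the number of `1 ≤ n ≤ X` such that all primes `p` with `p ^ k ∣ f(n)` satisfy
`X ^ s < p < X ^ t`. -/
noncomputable def countOut (f : ℤ[X]) (k : ℕ) (s t : ℝ) (X : ℕ) : ℕ :=
  ((Finset.Icc 1 X).filter (fun n : ℕ => ∀ p : ℕ, p.Prime → (p : ℤ) ^ k ∣ f.eval (n : ℤ) →
    (X : ℝ) ^ s < p ∧ (p : ℝ) < (X : ℝ) ^ t)).card

open Classical in
/-- the number of `1 ≤ n ≤ X` with `p ^ k ∣ f(n)` for some prime `X ^ s < p < X ^ t`. -/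
noncomputable def countMid (f : ℤ[X]) (k : ℕ) (s t : ℝ) (X : ℕ) : ℕ :=
  ((Finset.Icc 1 X).filter (fun n : ℕ => ∃ p : ℕ, p.Prime ∧ (X : ℝ) ^ s < p ∧
    (p : ℝ) < (X : ℝ) ^ t ∧ (p : ℤ) ^ k ∣ f.eval (n : ℤ))).card

open Classical in
/-- the number of `1 ≤ n ≤ X` with `p ^ k ∣ f(n)` for some prime `p > X ^ s`. -/
noncomputable def countAbove (f : ℤ[X]) (k : ℕ) (s : ℝ) (X : ℕ) : ℕ :=
  ((Finset.Icc 1 X).filter (fun n : ℕ => ∃ p : ℕ, p.Prime ∧ (X : ℝ) ^ s < p ∧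
    (p : ℤ) ^ k ∣ f.eval (n : ℤ))).card

/-- pairs (degree, exponent) with two exponents `s < t`: only the primes between `X ^ s` and
`X ^ t` are not treated. -/
def ranges : List (ℕ × ℕ × ℚ × ℚ) :=
  [(6, 3, 9 / 8, 7 / 4), (7, 3, 103 / 100, 32 / 15), (8, 3, 501 / 500, 249 / 100),
   (9, 4, 123 / 100, 7 / 4), (10, 4, 13 / 12, 207 / 100), (11, 4, 51 / 50, 59 / 25),
   (12, 4, 2001 / 2000, 53 / 20), (12, 5, 34 / 25, 5 / 3), (13, 5, 23 / 20, 2),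
   (14, 5, 53 / 50, 9 / 4), (15, 5, 101 / 100, 5 / 2), (16, 6, 5 / 4, 19 / 10),
   (17, 6, 11 / 10, 15 / 7), (18, 6, 26 / 25, 47 / 20), (19, 6, 101 / 100, 51 / 20)]

end Vale.Agent.P018.R2.H26
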