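import Vale.Agent.P018.R2.H26.Sep
import Vale.Agent.P018.R2.H49.Table
import Vale.Agent.P018.R2.H699.AdmAll

/-!
# P018, H26: the final theorems.
-/

namespace Vale.Agent.P018.R2.H26

open Polynomial Filter Topology Vale.Agent.P018.H867 Vale.Agent.P018.H867P

theorem midPow_irr (f : ℤ[X]) (hirr : Irreducible (f.map (Int.castRingHom ℚ))) (k : ℕ)
    (hk : 2 ≤ k) : MidPow f k := by
  rcases lt_or_ge f.natDegree 3 with h | h
  · exact midPow_of_tail f k (tailPow_irr f hirr k hk (Or.inl (by omega)))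
  · exact midPow_of_adm f hirr k hk h (Vale.Agent.P018.H699.adm_all f.natDegree k h hk)

theorem midPow_all (f : ℤ[X]) (hsq : Squarefree (f.map (Int.castRingHom ℚ))) (k : ℕ)
    (hk : 2 ≤ k) : MidPow f k :=
  midPow_sep k (fun g hg => midPow_irr g hg k hk) hk f.natDegree f le_rfl hsq

theorem ranges_ok : ∀ e ∈ ranges, 2 ≤ e.2.1 ∧ 3 ≤ e.1 ∧ 1 ≤ e.2.2.1 ∧ 1 ≤ e.2.2.2 ∧
    e.2.2.2 * e.2.1 ≤ e.1 := by
  decide +kernel

theorem main_ranges (e : ℕ × ℕ × ℚ × ℚ) (he : e ∈ ranges) (f : ℤ[X])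
    (hirr : Irreducible (f.map (Int.castRingHom ℚ))) (hd : f.natDegree = e.1)
    (hloc : ∀ p : ℕ, p.Prime → rho f (p ^ e.2.1) < p ^ e.2.1) :
    ∃ δ C : ℝ, 0 < δ ∧ ∀ X : ℕ, 1 ≤ X →
      |(countOut f e.2.1 e.2.2.1 e.2.2.2 X : ℝ) - density f e.2.1 * X| ≤ C * (X : ℝ) ^ (1 - δ) ∧
      |(countPF f e.2.1 X : ℝ) - density f e.2.1 * X| ≤
        C * (X : ℝ) ^ (1 - δ) + countMid f e.2.1 e.2.2.1 e.2.2.2 X := by
  obtain ⟨h1, h2, h3, h4, h5⟩ := ranges_ok e he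
  obtain ⟨h6, h7⟩ := Vale.Agent.P018.H49.T.adm_table e he
  have hk0 : (0 : ℝ) < e.2.1 := by exact_mod_cast (show 0 < e.2.1 by omega)
  have h5' : ((e.2.2.2 : ℚ) : ℝ) * e.2.1 ≤ e.1 := by exact_mod_cast h5
  rw [← hd] at h2 h5' h6 h7
  refine main_out f hirr e.2.1 h1 h2 hloc e.2.2.1 e.2.2.2 (by exact_mod_cast h3)
    (by exact_mod_cast h4) ?_ h6 h7
  rw [le_div_iff₀ hk0]
  exact h5'

end Vale.Agent.P018.R2.H26
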