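import Vale.Agent.P018.R2.H26.GenS
import Vale.Agent.P018.R2.H26.Fin
import Vale.Agent.P018.R2.H803.Linear
import Vale.Agent.P018.R2.H699.Quint

/-!
# P018, H26: the final theorems, with explicit exponents.
-/

namespace Vale.Agent.P018.R2.H26

open Polynomial Filter Topology Vale.Agent.P018.H867 Vale.Agent.P018.H867P

theorem midS_mono (f : ℤ[X]) (k : ℕ) (S : ℝ) (h : MidS f k S) :
    ∃ ε δ C : ℝ, 0 < ε ∧ ε < 1 ∧ 0 < δ ∧ 0 ≤ C ∧ ∀ X : ℕ, 1 ≤ X → ∀ s : ℝ, s ≤ S →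
      (midT f k (1 - ε) s X : ℝ) ≤ C * (X : ℝ) ^ (1 - δ) := by
  obtain ⟨ε, δ, C, h1, h2, h3, h4, h5⟩ := h
  refine ⟨ε, δ, C, h1, h2, h3, h4, fun X hX s hs => le_trans ?_ (h5 X hX)⟩
  exact_mod_cast midT_mono2 f k le_rfl hs hX

/-- the primes up to `X ^ s`, all `s` from `1` to `S` at the same time. -/
theorem main_upU (f : ℤ[X]) (hsq : Squarefree (f.map (Int.castRingHom ℚ))) (k : ℕ)
    (hk : 2 ≤ k) (hloc : ∀ p : ℕ, p.Prime → rho f (p ^ k) < p ^ k) (S : ℝ)
    (hmid : MidS f k S) :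
    ∃ δ C : ℝ, 0 < δ ∧ ∀ X : ℕ, 1 ≤ X → ∀ s : ℝ, 1 ≤ s → s ≤ S →
      |(countUpTo f k s X : ℝ) - density f k * X| ≤ C * (X : ℝ) ^ (1 - δ) ∧
      |(countPF f k X : ℝ) - density f k * X| ≤
        C * (X : ℝ) ^ (1 - δ) + countAbove f k s X := by
  classical
  obtain ⟨ε, δ1, C1, hεp, hε1, hδ1, hC1, h1⟩ := midS_mono f k S hmid
  obtain ⟨δ2, C2, hδ2, hC2, h2⟩ := main_trunc f hsq k hk hloc (e := ε) hεp hε1
  obtain ⟨δ, hδ⟩ : ∃ δ : ℝ, δ = min δ1 δ2 := ⟨_, rfl⟩
  have g2 : δ ≤ δ1 := by rw [hδ]; exact min_le_left _ _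
  have g3 : δ ≤ δ2 := by rw [hδ]; exact min_le_right _ _
  have hδ0 : 0 < δ := by rw [hδ]; exact lt_min hδ1 hδ2
  refine ⟨δ, C2 + C1, hδ0, fun X hX s hs hsS => ?_⟩
  have hXr : (1 : ℝ) ≤ X := by exact_mod_cast hX
  have h3 := h2 X hX (fun p => (p : ℝ) ≤ (X : ℝ) ^ s) (fun p hp => by
    calc (p : ℝ) ≤ X := by exact_mod_cast hp
      _ = (X : ℝ) ^ (1 : ℝ) := (Real.rpow_one _).symm
      _ ≤ (X : ℝ) ^ s := Real.rpow_le_rpow_of_exponent_le hXr hs)
  have h4 : cB (BV (fun p n => (p : ℤ) ^ k ∣ f.eval (n : ℤ))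
      (fun p => (p : ℝ) ≤ (X : ℝ) ^ s)) X = countUpTo f k s X := by
    unfold cB countUpTo
    refine card_filter_eq _ _ _ fun n => ?_
    constructor
    · intro hn p hp hpX hdvd
      exact hn p hp ⟨hpX, hdvd⟩
    · intro hn p hp hb
      exact hn p hp hb.1 hb.2
  have h5 : H867S.tB2 (BV (fun p n => (p : ℤ) ^ k ∣ f.eval (n : ℤ))
      (fun p => (p : ℝ) ≤ (X : ℝ) ^ s)) ε X ≤ midT f k (1 - ε) s X := by
    unfold H867S.tB2 midT
    refine Finset.card_le_card fun n hn => ?_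
    rw [Finset.mem_filter] at hn ⊢
    obtain ⟨hn1, p, hp, hXp, hpX, hdvd⟩ := hn
    exact ⟨hn1, p, hp, hXp, hpX, hdvd⟩
  rw [h4] at h3
  have h6 : (H867S.tB2 (BV (fun p n => (p : ℤ) ^ k ∣ f.eval (n : ℤ))
      (fun p => (p : ℝ) ≤ (X : ℝ) ^ s)) ε X : ℝ) ≤ C1 * (X : ℝ) ^ (1 - δ) := by
    calc _ ≤ (midT f k (1 - ε) s X : ℝ) := by exact_mod_cast h5
      _ ≤ C1 * (X : ℝ) ^ (1 - δ1) := h1 X hX s hsS
      _ ≤ C1 * (X : ℝ) ^ (1 - δ) := mul_le_mul_of_nonneg_left (rpow_min hXr g2) hC1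
  have h7 : C2 * (X : ℝ) ^ (1 - δ2) ≤ C2 * (X : ℝ) ^ (1 - δ) :=
    mul_le_mul_of_nonneg_left (rpow_min hXr g3) hC2
  have h11 : |(countUpTo f k s X : ℝ) - density f k * X| ≤
      (C2 + C1) * (X : ℝ) ^ (1 - δ) := by linarith
  refine ⟨h11, ?_⟩
  have h12 : countPF f k X ≤ countUpTo f k s X := by
    unfold countPF countUpTo
    refine Finset.card_le_card fun n hn => ?_
    rw [Finset.mem_filter] at hn ⊢
    exact ⟨hn.1, fun p hp _ => hn.2 p hp⟩
  have h13 : countUpTo f k s X ≤ countPF f k X + countAbove f k s X := by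
    unfold countPF countUpTo countAbove
    refine (Finset.card_le_card (t := _ ∪ _) ?_).trans (Finset.card_union_le _ _)
    intro n hn
    rw [Finset.mem_filter] at hn
    rw [Finset.mem_union, Finset.mem_filter, Finset.mem_filter]
    by_cases h : PowerFree k (f.eval (n : ℤ))
    · exact Or.inl ⟨hn.1, h⟩
    · right
      unfold PowerFree at h
      push Not at h
      obtain ⟨p, hp, hdvd⟩ := h
      refine ⟨hn.1, p, hp, ?_, hdvd⟩
      by_contra hcon
      exact hn.2 p hp (not_lt.1 hcon) hdvd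
  have h12' : (countPF f k X : ℝ) ≤ countUpTo f k s X := by exact_mod_cast h12
  have h13' : (countUpTo f k s X : ℝ) ≤ countPF f k X + countAbove f k s X := by
    exact_mod_cast h13
  have h14 : (0 : ℝ) ≤ countAbove f k s X := Nat.cast_nonneg _
  rw [abs_le] at h11 ⊢
  constructor <;> linarith [h11.1, h11.2]

/-- the tail up to the explicit exponent. -/
theorem midS_expl (f : ℤ[X]) (hsq : Squarefree (f.map (Int.castRingHom ℚ))) (k : ℕ)
    (hk : 2 ≤ k) : MidS f k (1 + 1 / (21 * (f.natDegree : ℝ) ^ 2)) := by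
  refine midS_sep k _ f.natDegree ?_ hk f.natDegree f le_rfl le_rfl hsq
  intro g hg hgd
  rcases lt_or_ge g.natDegree 3 with h | h
  · exact midS_of_tail g k _ (tailPow_irr g hg k hk (Or.inl (by omega)))
  · have hg0 : (0 : ℝ) < g.natDegree := by exact_mod_cast (show 0 < g.natDegree by omega)
    have hgf : (g.natDegree : ℝ) ≤ f.natDegree := by exact_mod_cast hgd
    refine midS_of_adm g hg k hk h _ (by
      have : (0 : ℝ) ≤ 1 / (21 * (f.natDegree : ℝ) ^ 2) := by positivity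
      linarith) fun a h1 h2 => Vale.Agent.P018.R2.H803.adm_explicit g.natDegree k h hk a h1 ?_
    refine h2.trans ?_
    gcongr

/-- the tail up to the explicit exponent of `adm_lin`. -/
theorem midS_lin (f : ℤ[X]) (hsq : Squarefree (f.map (Int.castRingHom ℚ))) (k : ℕ)
    (hk : 2 ≤ k) : MidS f k (1 + (min k f.natDegree : ℕ) / (360 * (f.natDegree : ℝ))) := by
  refine midS_sep k _ f.natDegree ?_ hk f.natDegree f le_rfl le_rfl hsq
  intro g hg hgd
  rcases lt_or_ge g.natDegree 3 with h | h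
  · exact midS_of_tail g k _ (tailPow_irr g hg k hk (Or.inl (by omega)))
  · exact midS_of_adm g hg k hk h _ (by
      have : (0 : ℝ) ≤ (min k f.natDegree : ℕ) / (360 * (f.natDegree : ℝ)) := by positivity
      linarith) fun a h1 h2 =>
        Vale.Agent.P018.R2.H803.adm_lin g.natDegree f.natDegree k h hgd hk a h1 h2

/-- the tail up to the larger one of the two exponents. -/
theorem midS_max (f : ℤ[X]) (hsq : Squarefree (f.map (Int.castRingHom ℚ))) (k : ℕ)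
    (hk : 2 ≤ k) : MidS f k (1 + max (1 / (21 * (f.natDegree : ℝ) ^ 2))
      ((min k f.natDegree : ℕ) / (360 * (f.natDegree : ℝ)))) := by
  rcases max_cases (1 / (21 * (f.natDegree : ℝ) ^ 2))
    ((min k f.natDegree : ℕ) / (360 * (f.natDegree : ℝ))) with ⟨h, -⟩ | ⟨h, -⟩
  · rw [h]
    exact midS_expl f hsq k hk
  · rw [h]
    exact midS_lin f hsq k hk

/-- the tail for quintics and squares. -/
theorem midS_quint (f : ℤ[X]) (hirr : Irreducible (f.map (Int.castRingHom ℚ)))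
    (hd : f.natDegree = 5) : MidS f 2 (101 / 100) := by
  refine midS_of_adm f hirr 2 le_rfl (by omega) _ (by norm_num) fun a h1 h2 => ?_
  rw [hd]
  exact Vale.Agent.P018.H699.adm_quint a h1 h2

end Vale.Agent.P018.R2.H26
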