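import Vale.Agent.P018.R2.H26.Sep

/-!
# P018, H26: the primes up to `X ^ s`, for polynomials without multiple factors.
-/

namespace Vale.Agent.P018.R2.H26

open Polynomial Filter Topology Vale.Agent.P018.H867 Vale.Agent.P018.H867P

/-- the tail of the primes from nearly `X` to `X ^ s`. -/
def MidS (f : ℤ[X]) (k : ℕ) (s : ℝ) : Prop :=
  ∃ ε δ C : ℝ, 0 < ε ∧ ε < 1 ∧ 0 < δ ∧ 0 ≤ C ∧ ∀ X : ℕ, 1 ≤ X →
    (midT f k (1 - ε) s X : ℝ) ≤ C * (X : ℝ) ^ (1 - δ)

theorem midT_mono2 (f : ℤ[X]) (k : ℕ) {s s' t t' : ℝ} (hs : s' ≤ s) (ht : t ≤ t') {X : ℕ}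
    (hX : 1 ≤ X) : midT f k s t X ≤ midT f k s' t' X := by
  classical
  have hXr : (1 : ℝ) ≤ X := by exact_mod_cast hX
  unfold midT
  apply Finset.card_le_card
  intro n hn
  rw [Finset.mem_filter] at hn ⊢
  obtain ⟨hnI, p, hp, hXp, hpX, hd⟩ := hn
  exact ⟨hnI, p, hp,
    lt_of_le_of_lt (Real.rpow_le_rpow_of_exponent_le hXr hs) hXp,
    hpX.trans (Real.rpow_le_rpow_of_exponent_le hXr ht), hd⟩

/-- admissibility of the exponents from `1` to `s`. -/
theorem midS_of_adm (f : ℤ[X]) (hirr : Irreducible (f.map (Int.castRingHom ℚ))) (k : ℕ)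
    (hk : 2 ≤ k) (hd : 3 ≤ f.natDegree) (s : ℝ) (hs : 1 ≤ s)
    (hadm : ∀ a : ℝ, 1 ≤ a → a ≤ s → K2.Adm2 f.natDegree k a) : MidS f k s := by
  obtain ⟨ε0, hε0, hP⟩ := pairsIn_Icc f hirr k hk hd 1 s le_rfl hs hadm
  obtain ⟨ε, hε⟩ : ∃ ε : ℝ, ε = min ε0 (1 / 2) := ⟨_, rfl⟩
  have hεp : 0 < ε := by rw [hε]; exact lt_min hε0 (by norm_num)
  have hε1 : ε ≤ 1 / 2 := by rw [hε]; exact min_le_right _ _
  have hεε : ε ≤ ε0 := by rw [hε]; exact min_le_left _ _
  have hP' : PairsIn f k (Set.Ioo (1 - ε) (s + ε)) :=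
    pairsIn_mono f k (Set.Ioo_subset_Ioo (by linarith) (by linarith)) hP
  obtain ⟨δ1, C1, hδ1, hC1, h1⟩ := mid_tail f k le_rfl hs hεp hε1 hP'
  refine ⟨ε / 2, δ1, C1, by positivity, by linarith, hδ1, hC1, fun X hX => ?_⟩
  refine le_trans ?_ (h1 X hX)
  exact_mod_cast midT_mono2 f k le_rfl (by linarith) hX

theorem midS_of_tail (f : ℤ[X]) (k : ℕ) (s : ℝ) (h : TailPow f k) : MidS f k s := by
  classical
  obtain ⟨ε, δ, C, hε, hε1, hδ, hC, h⟩ := h
  refine ⟨ε, δ, C, hε, hε1, hδ, hC, fun X hX => le_trans ?_ (h X hX)⟩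
  have h1 : midT f k (1 - ε) s X ≤ tail2 f k ε X := by
    unfold midT tail2
    refine Finset.card_le_card fun n hn => ?_
    rw [Finset.mem_filter] at hn ⊢
    obtain ⟨hn1, p, hp, hXp, -, hdvd⟩ := hn
    exact ⟨hn1, p, hp, hXp, hdvd⟩
  exact_mod_cast h1

theorem midS_split (f A B u v : ℤ[X]) (R c : ℤ) (hR : R ≠ 0) (hAB : A * B = C c * f)
    (hbez : u * A + v * B = C R) (k : ℕ) (s : ℝ) (hA : MidS A k s) (hB : MidS B k s) :
    MidS f k s := by
  obtain ⟨ε1, δ1, C1, hε1, hε1', hδ1, hC1, h1⟩ := hA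
  obtain ⟨ε2, δ2, C2, hε2, hε2', hδ2, hC2, h2⟩ := hB
  obtain ⟨ε, hε⟩ : ∃ ε : ℝ, ε = min ε1 ε2 := ⟨_, rfl⟩
  have hε0 : 0 < ε := by rw [hε]; exact lt_min hε1 hε2
  have hε1'' : ε < 1 := by rw [hε]; exact lt_of_le_of_lt (min_le_left _ _) hε1'
  have e1 : ε ≤ ε1 := by rw [hε]; exact min_le_left _ _
  have e2 : ε ≤ ε2 := by rw [hε]; exact min_le_right _ _
  obtain ⟨δ', C', hδ', hC', h⟩ := of_large (midT f k (1 - ε) s)
    (midT_triv f k (1 - ε) s) ⌈(R.natAbs : ℝ) ^ (1 / (1 - ε))⌉₊ (min δ1 δ2) (C1 + C2)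
    (lt_min hδ1 hδ2) (by
    intro X hX hX1
    have hXr : (1 : ℝ) ≤ X := by exact_mod_cast hX1
    have hRX : (R.natAbs : ℝ) ≤ (X : ℝ) ^ (1 - ε) := by
      have h3 : (R.natAbs : ℝ) ^ (1 / (1 - ε)) ≤ X := (Nat.le_ceil _).trans (by exact_mod_cast hX)
      calc (R.natAbs : ℝ) = ((R.natAbs : ℝ) ^ (1 / (1 - ε))) ^ (1 - ε) := by
            rw [← Real.rpow_mul (by positivity), one_div, inv_mul_cancel₀ (by linarith),
              Real.rpow_one]
        _ ≤ (X : ℝ) ^ (1 - ε) := Real.rpow_le_rpow (by positivity) h3 (by linarith)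
    have h3 := midT_split f A B u v R c hR hAB hbez k X (1 - ε) s hRX
    have h4 : (midT f k (1 - ε) s X : ℝ) ≤
        midT A k (1 - ε) s X + midT B k (1 - ε) s X := by exact_mod_cast h3
    have h5 : (midT A k (1 - ε) s X : ℝ) ≤ C1 * (X : ℝ) ^ (1 - min δ1 δ2) := by
      refine le_trans (by exact_mod_cast midT_mono2 A k (by linarith) le_rfl hX1)
        ((h1 X hX1).trans ?_)
      exact mul_le_mul_of_nonneg_left (rpow_min hXr (min_le_left δ1 δ2)) hC1
    have h6 : (midT B k (1 - ε) s X : ℝ) ≤ C2 * (X : ℝ) ^ (1 - min δ1 δ2) := by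
      refine le_trans (by exact_mod_cast midT_mono2 B k (by linarith) le_rfl hX1)
        ((h2 X hX1).trans ?_)
      exact mul_le_mul_of_nonneg_left (rpow_min hXr (min_le_right δ1 δ2)) hC2
    rw [add_mul]
    linarith)
  exact ⟨ε, δ', C', hε0, hε1'', hδ', hC', h⟩

/-- induction on the degree, for polynomials without multiple factors. -/
theorem midS_sep (k : ℕ) (s : ℝ) (D : ℕ)
    (hQ : ∀ f : ℤ[X], Irreducible (f.map (Int.castRingHom ℚ)) → f.natDegree ≤ D → MidS f k s)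
    (hk : 2 ≤ k) : ∀ (N : ℕ) (f : ℤ[X]), N ≤ D → f.natDegree ≤ N →
      Squarefree (f.map (Int.castRingHom ℚ)) → MidS f k s := by
  intro N
  induction N with
  | zero =>
    intro f _ hN hsq
    have hf0 : f ≠ 0 := by
      rintro rfl
      simp at hsq
    exact midS_of_tail f k s (tailPow_gt f hf0 k (by omega))
  | succ N ih =>
    intro f hND hN hsq
    have hf0 : f ≠ 0 := by
      rintro rfl
      simp at hsq
    have hinj : Function.Injective (Polynomial.map (Int.castRingHom ℚ)) :=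
      Polynomial.map_injective _ (Int.cast_injective)
    have hdegmap : ∀ g : ℤ[X], (g.map (Int.castRingHom ℚ)).natDegree = g.natDegree := fun g =>
      natDegree_map_eq_of_injective (Int.cast_injective) g
    have hm0 : f.map (Int.castRingHom ℚ) ≠ 0 := fun h => hf0 (hinj (by simpa using h))
    rcases Nat.eq_zero_or_pos f.natDegree with hd0 | hd0
    · exact midS_of_tail f k s (tailPow_gt f hf0 k (by omega))
    by_cases hirr : Irreducible (f.map (Int.castRingHom ℚ))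
    · exact hQ f hirr (hN.trans hND)
    have hnu : ¬ IsUnit (f.map (Int.castRingHom ℚ)) := by
      intro h
      have h1 := natDegree_eq_zero_of_isUnit h
      rw [hdegmap] at h1
      omega
    obtain ⟨a, b, ha, hb, hab⟩ : ∃ a b : ℚ[X], ¬ IsUnit a ∧ ¬ IsUnit b ∧
        f.map (Int.castRingHom ℚ) = a * b := by
      by_contra hcon
      apply hirr
      refine ⟨hnu, fun a b hab => ?_⟩
      by_contra h
      push Not at h
      exact hcon ⟨a, b, h.1, h.2, hab⟩
    have ha0 : a ≠ 0 := by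
      rintro rfl
      exact hm0 (by rw [hab, zero_mul])
    have hb0 : b ≠ 0 := by
      rintro rfl
      exact hm0 (by rw [hab, mul_zero])
    have hdega : 0 < a.natDegree := by
      by_contra h
      have h0 : a.natDegree = 0 := by omega
      exact ha (isUnit_iff_degree_eq_zero.2 (by rw [degree_eq_natDegree ha0, h0]; rfl))
    have hdegb : 0 < b.natDegree := by
      by_contra h
      have h0 : b.natDegree = 0 := by omega
      exact hb (isUnit_iff_degree_eq_zero.2 (by rw [degree_eq_natDegree hb0, h0]; rfl))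
    have hdeg : f.natDegree = a.natDegree + b.natDegree := by
      rw [← hdegmap f, hab, natDegree_mul ha0 hb0]
    have hcop : IsCoprime a b := by
      have h1 : Squarefree (a * b) := hab ▸ hsq
      exact (squarefree_mul_iff.1 h1).1.isCoprime
    obtain ⟨A, σ, hσ, hA⟩ := sv_normal a
    obtain ⟨B, τ, hτ, hB⟩ := sv_normal b
    have hsu : IsUnit (C (σ : ℚ)) := isUnit_C.2 (isUnit_iff_ne_zero.2 (by exact_mod_cast hσ))
    have htu : IsUnit (C (τ : ℚ)) := isUnit_C.2 (isUnit_iff_ne_zero.2 (by exact_mod_cast hτ))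
    have hAa : Associated (A.map (Int.castRingHom ℚ)) a := by
      rw [hA]
      exact (associated_unit_mul_left a _ hsu)
    have hBb : Associated (B.map (Int.castRingHom ℚ)) b := by
      rw [hB]
      exact (associated_unit_mul_left b _ htu)
    have hdA : A.natDegree = a.natDegree := by
      rw [← hdegmap A, hA, natDegree_mul hsu.ne_zero ha0]
      simp
    have hdB : B.natDegree = b.natDegree := by
      rw [← hdegmap B, hB, natDegree_mul htu.ne_zero hb0]
      simp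
    have hsqab : Squarefree a ∧ Squarefree b := by
      have h1 : Squarefree (a * b) := hab ▸ hsq
      exact ⟨(squarefree_mul_iff.1 h1).2.1, (squarefree_mul_iff.1 h1).2.2⟩
    have hcopAB : IsCoprime (A.map (Int.castRingHom ℚ)) (B.map (Int.castRingHom ℚ)) := by
      rw [hA, hB]
      exact (isCoprime_mul_unit_left_left hsu _ _).2 ((isCoprime_mul_unit_left_right htu _ _).2 hcop)
    obtain ⟨u, v, R, hR, hbez⟩ := int_bezout A B hcopAB
    have hABf : A * B = C (σ * τ) * f := by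
      apply hinj
      simp only [Polynomial.map_mul, Polynomial.map_C, hA, hB, hab]
      simp only [eq_intCast, Int.cast_mul, C_mul]
      ring
    exact midS_split f A B u v R (σ * τ) hR hABf hbez k s
      (ih A (by omega) (by omega) ((hAa.symm.squarefree_iff).1 hsqab.1))
      (ih B (by omega) (by omega) ((hBb.symm.squarefree_iff).1 hsqab.2))

/-- the primes up to `X ^ s`. -/
theorem main_upS (f : ℤ[X]) (hsq : Squarefree (f.map (Int.castRingHom ℚ))) (k : ℕ)
    (hk : 2 ≤ k) (hloc : ∀ p : ℕ, p.Prime → rho f (p ^ k) < p ^ k) (s : ℝ) (hs : 1 ≤ s)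
    (hmid : MidS f k s) :
    ∃ δ C : ℝ, 0 < δ ∧ ∀ X : ℕ, 1 ≤ X →
      |(countUpTo f k s X : ℝ) - density f k * X| ≤ C * (X : ℝ) ^ (1 - δ) ∧
      |(countPF f k X : ℝ) - density f k * X| ≤
        C * (X : ℝ) ^ (1 - δ) + countAbove f k s X := by
  classical
  obtain ⟨ε, δ1, C1, hεp, hε1, hδ1, hC1, h1⟩ := hmid
  obtain ⟨δ2, C2, hδ2, hC2, h2⟩ := main_trunc f hsq k hk hloc (e := ε) hεp hε1
  obtain ⟨δ, hδ⟩ : ∃ δ : ℝ, δ = min δ1 δ2 := ⟨_, rfl⟩
  have g2 : δ ≤ δ1 := by rw [hδ]; exact min_le_left _ _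
  have g3 : δ ≤ δ2 := by rw [hδ]; exact min_le_right _ _
  have hδ0 : 0 < δ := by rw [hδ]; exact lt_min hδ1 hδ2
  refine ⟨δ, C2 + C1, hδ0, fun X hX => ?_⟩
  have hXr : (1 : ℝ) ≤ X := by exact_mod_cast hX
  have h3 := h2 X hX (fun p => (p : ℝ) ≤ (X : ℝ) ^ s) (fun p hp => by
    calc (p : ℝ) ≤ X := by exact_mod_cast hp
      _ = (X : ℝ) ^ (1 : ℝ) := (Real.rpow_one _).symm
      _ ≤ (X : ℝ) ^ s := Real.rpow_le_rpow_of_exponent_le hXr hs)
  have h4 : cB (BV (fun p n => (p : ℤ) ^ k ∣ f.eval (n : ℤ))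
      (fun p => (p : ℝ) ≤ (X : ℝ) ^ s)) X = countUpTo f k s X := by
    unfold cB countUpTo
    refine card_filter_eq _ _ _ fun n => ?_
    constructor
    · intro hn p hp hpX hdvd
      exact hn p hp ⟨hpX, hdvd⟩
    · intro hn p hp hb
      exact hn p hp hb.1 hb.2
  have h5 : H867S.tB2 (BV (fun p n => (p : ℤ) ^ k ∣ f.eval (n : ℤ))
      (fun p => (p : ℝ) ≤ (X : ℝ) ^ s)) ε X ≤ midT f k (1 - ε) s X := by
    unfold H867S.tB2 midT
    refine Finset.card_le_card fun n hn => ?_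
    rw [Finset.mem_filter] at hn ⊢
    obtain ⟨hn1, p, hp, hXp, hpX, hdvd⟩ := hn
    exact ⟨hn1, p, hp, hXp, hpX, hdvd⟩
  rw [h4] at h3
  have h6 : (H867S.tB2 (BV (fun p n => (p : ℤ) ^ k ∣ f.eval (n : ℤ))
      (fun p => (p : ℝ) ≤ (X : ℝ) ^ s)) ε X : ℝ) ≤ C1 * (X : ℝ) ^ (1 - δ) := by
    calc _ ≤ (midT f k (1 - ε) s X : ℝ) := by exact_mod_cast h5
      _ ≤ C1 * (X : ℝ) ^ (1 - δ1) := h1 X hX
      _ ≤ C1 * (X : ℝ) ^ (1 - δ) := mul_le_mul_of_nonneg_left (rpow_min hXr g2) hC1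
  have h7 : C2 * (X : ℝ) ^ (1 - δ2) ≤ C2 * (X : ℝ) ^ (1 - δ) :=
    mul_le_mul_of_nonneg_left (rpow_min hXr g3) hC2
  have h11 : |(countUpTo f k s X : ℝ) - density f k * X| ≤
      (C2 + C1) * (X : ℝ) ^ (1 - δ) := by linarith
  refine ⟨h11, ?_⟩
  have h12 : countPF f k X ≤ countUpTo f k s X := by
    unfold countPF countUpTo
    refine Finset.card_le_card fun n hn => ?_
    rw [Finset.mem_filter] at hn ⊢
    exact ⟨hn.1, fun p hp _ => hn.2 p hp⟩
  have h13 : countUpTo f k s X ≤ countPF f k X + countAbove f k s X := by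
    unfold countPF countUpTo countAbove
    refine (Finset.card_le_card (t := _ ∪ _) ?_).trans (Finset.card_union_le _ _)
    intro n hn
    rw [Finset.mem_filter] at hn
    rw [Finset.mem_union, Finset.mem_filter, Finset.mem_filter]
    by_cases h : PowerFree k (f.eval (n : ℤ))
    · exact Or.inl ⟨hn.1, h⟩
    · right
      unfold PowerFree at h
      push Not at h
      obtain ⟨p, hp, hdvd⟩ := h
      refine ⟨hn.1, p, hp, ?_, hdvd⟩
      by_contra hcon
      exact hn.2 p hp (not_lt.1 hcon) hdvd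
  have h12' : (countPF f k X : ℝ) ≤ countUpTo f k s X := by exact_mod_cast h12
  have h13' : (countUpTo f k s X : ℝ) ≤ countPF f k X + countAbove f k s X := by
    exact_mod_cast h13
  have h14 : (0 : ℝ) ≤ countAbove f k s X := Nat.cast_nonneg _
  rw [abs_le] at h11 ⊢
  constructor <;> linarith [h11.1, h11.2]

/-- the primes up to `X ^ s`, when all exponents from `1` to `s` are admissible for all degrees
up to the degree of `f`. -/
theorem main_upS_adm (f : ℤ[X]) (hsq : Squarefree (f.map (Int.castRingHom ℚ))) (k : ℕ)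
    (hk : 2 ≤ k) (hloc : ∀ p : ℕ, p.Prime → rho f (p ^ k) < p ^ k) (s : ℝ) (hs : 1 ≤ s)
    (hadm : ∀ d : ℕ, 3 ≤ d → d ≤ f.natDegree → ∀ a : ℝ, 1 ≤ a → a ≤ s → K2.Adm2 d k a) :
    ∃ δ C : ℝ, 0 < δ ∧ ∀ X : ℕ, 1 ≤ X →
      |(countUpTo f k s X : ℝ) - density f k * X| ≤ C * (X : ℝ) ^ (1 - δ) ∧
      |(countPF f k X : ℝ) - density f k * X| ≤
        C * (X : ℝ) ^ (1 - δ) + countAbove f k s X := by
  refine main_upS f hsq k hk hloc s hs (midS_sep k s f.natDegree ?_ hk f.natDegree f le_rfl le_rfl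
    hsq)
  intro g hg hgd
  rcases lt_or_ge g.natDegree 3 with h | h
  · exact midS_of_tail g k s (tailPow_irr g hg k hk (Or.inl (by omega)))
  · exact midS_of_adm g hg k hk h s hs (hadm g.natDegree h hgd)

end Vale.Agent.P018.R2.H26
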