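import Vale.Agent.P018.H867P.TailQ
import Vale.Agent.P018.R2.H26.AbsV

/-!
# P018, H26: the integers `n ≤ X` with `p ^ k ∣ f(n)` for a prime `p` in a range of exponents.
-/

namespace Vale.Agent.P018.R2.H26

open Polynomial Filter Topology Vale.Agent.P018.H867 Vale.Agent.P018.H867P

/-- the bound for the pairs with `log P / log X` in `S`. -/
def PairsIn (f : ℤ[X]) (k : ℕ) (S : Set ℝ) : Prop :=
  ∃ η K : ℝ, 0 < η ∧ 0 < K ∧ ∃ X0 : ℕ, ∀ X P : ℕ, X0 ≤ X → 2 ≤ X → X ≤ P ^ 2 →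
    Real.log P / Real.log X ∈ S → ((pairs f k X P).card : ℝ) ≤ K * (X : ℝ) ^ (1 - η)

theorem pairsIn_empty (f : ℤ[X]) (k : ℕ) : PairsIn f k ∅ :=
  ⟨1, 1, one_pos, one_pos, 0, fun _ _ _ _ _ h => absurd h (Set.notMem_empty _)⟩

theorem pairsIn_mono (f : ℤ[X]) (k : ℕ) {S T : Set ℝ} (hST : S ⊆ T) (h : PairsIn f k T) :
    PairsIn f k S := by
  obtain ⟨η, K, hη, hK, X0, h⟩ := h
  exact ⟨η, K, hη, hK, X0, fun X P h1 h2 h3 h4 => h X P h1 h2 h3 (hST h4)⟩

theorem pairsIn_union (f : ℤ[X]) (k : ℕ) {S T : Set ℝ} (h1 : PairsIn f k S)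
    (h2 : PairsIn f k T) : PairsIn f k (S ∪ T) := by
  obtain ⟨η1, K1, hη1, hK1, X1, h1⟩ := h1
  obtain ⟨η2, K2, hη2, hK2, X2, h2⟩ := h2
  refine ⟨min η1 η2, max K1 K2, lt_min hη1 hη2, lt_max_of_lt_left hK1, max X1 X2, ?_⟩
  intro X P hX hX2 hXP hS
  have hXr : (1 : ℝ) ≤ X := by exact_mod_cast (show 1 ≤ X by omega)
  rcases hS with hS | hS
  · refine (h1 X P (le_trans (le_max_left _ _) hX) hX2 hXP hS).trans ?_
    exact mul_le_mul (le_max_left _ _)
      (Real.rpow_le_rpow_of_exponent_le hXr (by linarith [min_le_left η1 η2]))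
      (by positivity) (by positivity)
  · refine (h2 X P (le_trans (le_max_right _ _) hX) hX2 hXP hS).trans ?_
    exact mul_le_mul (le_max_right _ _)
      (Real.rpow_le_rpow_of_exponent_le hXr (by linarith [min_le_right η1 η2]))
      (by positivity) (by positivity)

/-- an admissible exponent has a good neighbourhood. -/
theorem pairsIn_near (f : ℤ[X]) (hirr : Irreducible (f.map (Int.castRingHom ℚ))) (k : ℕ)
    (hk : 2 ≤ k) (hd3 : 3 ≤ f.natDegree) (a : ℝ) (ha : 1 ≤ a)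
    (hadm : K2.Adm2 f.natDegree k a) : ∃ ε : ℝ, 0 < ε ∧ PairsIn f k (Set.Ioo (a - ε) (a + ε)) := by
  obtain ⟨ε, η, K, hε, hη, hK, X0, h⟩ := local_bound3 f hirr k hk hd3 a ha hadm
  refine ⟨ε, hε, η, K, hη, hK, X0, ?_⟩
  intro X P hX hX2 hXP hS
  have hXr : (2 : ℝ) ≤ X := by exact_mod_cast hX2
  have hl : 0 < Real.log X := Real.log_pos (by linarith)
  have hP0 : 0 < P := by
    rcases Nat.eq_zero_or_pos P with h0 | h0
    · rw [h0] at hXP
      norm_num at hXP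
      omega
    · exact h0
  have hPr : (0 : ℝ) < P := by exact_mod_cast hP0
  rw [Set.mem_Ioo, lt_div_iff₀ hl, div_lt_iff₀ hl] at hS
  refine h X P hX hXP ?_ ?_
  · rw [← Real.exp_log hPr, Real.rpow_def_of_pos (by linarith), Real.exp_le_exp]
    linarith [hS.1]
  · rw [← Real.exp_log hPr, Real.rpow_def_of_pos (by linarith), Real.exp_le_exp]
    linarith [hS.2]

/-- an interval of admissible exponents has a good neighbourhood. -/
theorem pairsIn_Icc (f : ℤ[X]) (hirr : Irreducible (f.map (Int.castRingHom ℚ))) (k : ℕ)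
    (hk : 2 ≤ k) (hd3 : 3 ≤ f.natDegree) (α β : ℝ) (hα : 1 ≤ α) (hαβ : α ≤ β)
    (hadm : ∀ a : ℝ, α ≤ a → a ≤ β → K2.Adm2 f.natDegree k a) :
    ∃ ε : ℝ, 0 < ε ∧ PairsIn f k (Set.Ioo (α - ε) (β + ε)) := by
  have hnear : ∀ a : ℝ, α ≤ a → a ≤ β → ∃ ε : ℝ, 0 < ε ∧ PairsIn f k (Set.Ioo (a - ε) (a + ε)) :=
    fun a h1 h2 => pairsIn_near f hirr k hk hd3 a (hα.trans h1) (hadm a h1 h2)
  have hcomp : PairsIn f k (Set.Icc α β) := by
    refine isCompact_Icc.induction_on (pairsIn_empty f k)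
      (fun s t hst ht => pairsIn_mono f k hst ht)
      (fun s t hs ht => pairsIn_union f k hs ht) ?_
    intro a ha
    obtain ⟨ε, hε, h⟩ := hnear a ha.1 ha.2
    exact ⟨_, mem_nhdsWithin_of_mem_nhds (Ioo_mem_nhds (by linarith) (by linarith)), h⟩
  obtain ⟨ε1, hε1, h1⟩ := hnear α le_rfl hαβ
  obtain ⟨ε2, hε2, h2⟩ := hnear β hαβ le_rfl
  refine ⟨min ε1 ε2, lt_min hε1 hε2,
    pairsIn_mono f k ?_ (pairsIn_union f k h1 (pairsIn_union f k hcomp h2))⟩
  intro x hx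
  rw [Set.mem_Ioo] at hx
  have e1 := min_le_left ε1 ε2
  have e2 := min_le_right ε1 ε2
  rcases lt_or_ge x α with h | h
  · left
    rw [Set.mem_Ioo]
    constructor <;> linarith
  · right
    rcases le_or_gt x β with h' | h'
    · left
      exact ⟨h, h'⟩
    · right
      rw [Set.mem_Ioo]
      constructor <;> linarith

open Classical in
/-- the number of `1 ≤ n ≤ X` with `p ^ k ∣ f(n)` for some prime `X ^ s < p ≤ X ^ t`. -/
noncomputable def midT (f : ℤ[X]) (k : ℕ) (s t : ℝ) (X : ℕ) : ℕ :=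
  ((Finset.Icc 1 X).filter (fun n : ℕ => ∃ p : ℕ, p.Prime ∧ (X : ℝ) ^ s < p ∧ (p : ℝ) ≤ (X : ℝ) ^ t ∧
    (p : ℤ) ^ k ∣ f.eval (n : ℤ))).card

theorem midT_triv (f : ℤ[X]) (k : ℕ) (s t : ℝ) (X : ℕ) : midT f k s t X ≤ X := by
  classical
  unfold midT
  refine (Finset.card_filter_le _ _).trans ?_
  simp

/-- only large `X` matter. -/
theorem of_large (F : ℕ → ℕ) (hF : ∀ X, F X ≤ X) (N0 : ℕ) (δ C : ℝ)
    (hδ : 0 < δ) (h : ∀ X : ℕ, N0 ≤ X → 1 ≤ X → (F X : ℝ) ≤ C * (X : ℝ) ^ (1 - δ)) :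
    ∃ δ' C' : ℝ, 0 < δ' ∧ 0 ≤ C' ∧ ∀ X : ℕ, 1 ≤ X → (F X : ℝ) ≤ C' * (X : ℝ) ^ (1 - δ') := by
  refine ⟨min δ 1, max |C| (N0 + 1), lt_min hδ one_pos,
    le_max_of_le_left (abs_nonneg _), fun X hX => ?_⟩
  have hXr : (1 : ℝ) ≤ X := by exact_mod_cast hX
  have hq : (X : ℝ) ^ (1 - δ) ≤ (X : ℝ) ^ (1 - min δ 1) :=
    Real.rpow_le_rpow_of_exponent_le hXr (by linarith [min_le_left δ 1])
  have hq1 : 1 ≤ (X : ℝ) ^ (1 - min δ 1) :=
    Real.one_le_rpow hXr (by linarith [min_le_right δ 1])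
  have hq0 : 0 ≤ (X : ℝ) ^ (1 - δ) := by positivity
  rcases le_or_gt N0 X with h1 | h1
  · calc (F X : ℝ) ≤ C * (X : ℝ) ^ (1 - δ) := h X h1 hX
      _ ≤ |C| * (X : ℝ) ^ (1 - δ) := mul_le_mul_of_nonneg_right (le_abs_self C) hq0
      _ ≤ max |C| (N0 + 1) * (X : ℝ) ^ (1 - min δ 1) :=
        mul_le_mul (le_max_left _ _) hq hq0 (le_max_of_le_left (abs_nonneg _))
  · have h3 : (F X : ℝ) ≤ X := by exact_mod_cast hF X
    have h4 : (X : ℝ) ≤ N0 + 1 := by
      have : (X : ℝ) ≤ N0 := by exact_mod_cast h1.le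
      linarith
    calc (F X : ℝ) ≤ (N0 + 1) * 1 := by linarith
      _ ≤ max |C| (N0 + 1) * (X : ℝ) ^ (1 - min δ 1) :=
        mul_le_mul (le_max_right _ _) hq1 zero_le_one (le_max_of_le_left (abs_nonneg _))

/-- **the tail of a range of exponents.** -/
theorem mid_tail (f : ℤ[X]) (k : ℕ) {α β ε : ℝ} (hα : 1 ≤ α) (hαβ : α ≤ β) (hε : 0 < ε)
    (hε1 : ε ≤ 1 / 2) (h : PairsIn f k (Set.Ioo (α - ε) (β + ε))) :
    ∃ δ C : ℝ, 0 < δ ∧ 0 ≤ C ∧ ∀ X : ℕ, 1 ≤ X →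
      (midT f k (α - ε / 2) (β + ε / 2) X : ℝ) ≤ C * (X : ℝ) ^ (1 - δ) := by
  classical
  obtain ⟨η, K, hη, hK, X0, hX0⟩ := h
  set P0 : ℕ → ℕ := fun X => ⌊(X : ℝ) ^ (α - ε / 2)⌋₊ with hP0
  set M : ℕ := ⌈β⌉₊ + 1 with hM
  set N1 : ℕ := max (max X0 2) ⌈(3 : ℝ) ^ (2 / ε)⌉₊ with hN1
  have hβ : (0 : ℝ) ≤ β := by linarith
  have hP0a : ∀ X : ℕ, N1 ≤ X → (X : ℝ) ^ (α - ε) < P0 X ∧ 1 ≤ P0 X ∧ X ≤ P0 X ^ 2 := by
    intro X hX
    have hX2 : 2 ≤ X := le_trans (le_trans (le_max_right _ _) (le_max_left _ _)) hX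
    have hXr : (1 : ℝ) ≤ X := by exact_mod_cast (show 1 ≤ X by omega)
    have hXp : (0 : ℝ) < X := by linarith
    have h1 : (3 : ℝ) ^ (2 / ε) ≤ X :=
      (Nat.le_ceil _).trans (by exact_mod_cast le_trans (le_max_right _ _) hX)
    have h2 : (3 : ℝ) ≤ (X : ℝ) ^ (ε / 2) := by
      calc (3 : ℝ) = ((3 : ℝ) ^ (2 / ε)) ^ (ε / 2) := by
            rw [← Real.rpow_mul (by norm_num)]
            rw [show 2 / ε * (ε / 2) = 1 by field_simp, Real.rpow_one]
        _ ≤ (X : ℝ) ^ (ε / 2) := Real.rpow_le_rpow (by positivity) h1 (by positivity)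
    have h3 : 1 ≤ (X : ℝ) ^ (α - ε) := Real.one_le_rpow hXr (by linarith)
    have h4 : (X : ℝ) ^ (α - ε / 2) = (X : ℝ) ^ (α - ε) * (X : ℝ) ^ (ε / 2) := by
      rw [← Real.rpow_add hXp]
      congr 1
      ring
    have h5 : (X : ℝ) ^ (α - ε) + 2 ≤ (X : ℝ) ^ (α - ε / 2) := by
      rw [h4]
      nlinarith
    have h6 := Nat.lt_floor_add_one ((X : ℝ) ^ (α - ε / 2))
    have h7 : (X : ℝ) ^ (α - ε) < P0 X := by
      simp only [hP0]
      linarith
    refine ⟨h7, ?_, ?_⟩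
    · have h8 : (1 : ℝ) ≤ P0 X := h3.trans h7.le
      exact_mod_cast h8
    · have h9 : (X : ℝ) ^ (1 / 2 : ℝ) ≤ P0 X :=
        (Real.rpow_le_rpow_of_exponent_le hXr (by linarith)).trans h7.le
      have h10 : (X : ℝ) ≤ (P0 X : ℝ) ^ 2 := by
        calc (X : ℝ) = ((X : ℝ) ^ (1 / 2 : ℝ)) ^ 2 := by
              rw [← Real.rpow_natCast, ← Real.rpow_mul hXp.le]
              norm_num
          _ ≤ (P0 X : ℝ) ^ 2 := pow_le_pow_left₀ (by positivity) h9 2
      exact_mod_cast h10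
  -- every block is small
  have hblock : ∀ X : ℕ, N1 ≤ X → ∀ j : ℕ, (2 ^ j * P0 X : ℝ) < (X : ℝ) ^ (β + ε / 2) →
      ((pairs f k X (2 ^ j * P0 X)).card : ℝ) ≤ K * (X : ℝ) ^ (1 - η) := by
    intro X hX j hj
    have hXX0 : X0 ≤ X := le_trans (le_trans (le_max_left _ _) (le_max_left _ _)) hX
    have hX2 : 2 ≤ X := le_trans (le_trans (le_max_right _ _) (le_max_left _ _)) hX
    have hXr : (2 : ℝ) ≤ X := by exact_mod_cast hX2
    have hXp : (0 : ℝ) < X := by linarith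
    have hl : 0 < Real.log X := Real.log_pos (by linarith)
    obtain ⟨h1, h2, h3⟩ := hP0a X hX
    have h4 : P0 X ≤ 2 ^ j * P0 X := Nat.le_mul_of_pos_left _ (by positivity)
    have h4r : (P0 X : ℝ) ≤ 2 ^ j * P0 X := by exact_mod_cast h4
    have hPp : (0 : ℝ) < 2 ^ j * (P0 X : ℝ) := by
      have : (1 : ℝ) ≤ P0 X := by exact_mod_cast h2
      positivity
    refine hX0 X (2 ^ j * P0 X) hXX0 hX2 (h3.trans (Nat.pow_le_pow_left h4 2)) ?_
    rw [Set.mem_Ioo, lt_div_iff₀ hl, div_lt_iff₀ hl]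
    push_cast
    constructor
    · have h5 : (X : ℝ) ^ (α - ε) < 2 ^ j * P0 X := h1.trans_le h4r
      have h6 := Real.log_lt_log (by positivity) h5
      rwa [Real.log_rpow hXp] at h6
    · have h6 := Real.log_lt_log hPp hj
      rw [Real.log_rpow hXp] at h6
      nlinarith
  -- the tail
  have htail : ∀ X : ℕ, N1 ≤ X → (midT f k (α - ε / 2) (β + ε / 2) X : ℝ) ≤
      ((Nat.log 2 (X ^ M) : ℝ) + 1) * (K * (X : ℝ) ^ (1 - η)) := by
    intro X hX
    have hX2 : 2 ≤ X := le_trans (le_trans (le_max_right _ _) (le_max_left _ _)) hX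
    have hXr : (1 : ℝ) ≤ X := by exact_mod_cast (show 1 ≤ X by omega)
    obtain ⟨-, hP01, -⟩ := hP0a X hX
    set J := Nat.log 2 (X ^ M) with hJ
    set G := (Finset.range (J + 1)).filter
      (fun j => (2 ^ j * P0 X : ℝ) < (X : ℝ) ^ (β + ε / 2)) with hG
    have hsub : ((Finset.Icc 1 X).filter (fun n : ℕ => ∃ p : ℕ, p.Prime ∧
        (X : ℝ) ^ (α - ε / 2) < p ∧ (p : ℝ) ≤ (X : ℝ) ^ (β + ε / 2) ∧
          (p : ℤ) ^ k ∣ f.eval (n : ℤ))) ⊆
        G.biUnion (fun j => (pairs f k X (2 ^ j * P0 X)).image Prod.fst) := by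
      intro n hn
      rw [Finset.mem_filter, Finset.mem_Icc] at hn
      obtain ⟨⟨hn1, hnX⟩, p, hp, hXp, hpX, hdvd⟩ := hn
      have hpM : p ≤ X ^ M := by
        have h1 : (p : ℝ) ≤ (X : ℝ) ^ ((M : ℕ) : ℝ) := by
          refine hpX.trans (Real.rpow_le_rpow_of_exponent_le hXr ?_)
          have h2 := Nat.le_ceil β
          rw [hM]
          push_cast
          linarith
        rw [Real.rpow_natCast] at h1
        exact_mod_cast h1
      have hPp : P0 X < p := by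
        have h1 : ((P0 X : ℕ) : ℝ) ≤ (X : ℝ) ^ (α - ε / 2) := Nat.floor_le (by positivity)
        exact_mod_cast lt_of_le_of_lt h1 hXp
      -- choose the block
      have hex : ∃ j, p ≤ 2 ^ (j + 1) * P0 X := by
        refine ⟨p, ?_⟩
        have : p ≤ 2 ^ (p + 1) := (Nat.lt_two_pow_self (n := p)).le.trans
          (Nat.pow_le_pow_right (by norm_num) (by omega))
        exact this.trans (Nat.le_mul_of_pos_right _ (by omega))
      set j := Nat.find hex with hj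
      have hj1 : p ≤ 2 ^ (j + 1) * P0 X := Nat.find_spec hex
      have hj2 : 2 ^ j * P0 X < p := by
        rcases Nat.eq_zero_or_pos j with h0 | h0
        · rw [h0]
          simpa using hPp
        · have := Nat.find_min hex (m := j - 1) (by omega)
          push Not at this
          rwa [Nat.sub_add_cancel h0] at this
      have hjJ : j < J + 1 := by
        rw [Nat.lt_succ_iff, hJ]
        apply Nat.le_log_of_pow_le (by norm_num)
        calc 2 ^ j ≤ 2 ^ j * P0 X := Nat.le_mul_of_pos_right _ (by omega)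
          _ ≤ p := hj2.le
          _ ≤ X ^ M := hpM
      rw [Finset.mem_biUnion]
      refine ⟨j, ?_, ?_⟩
      · rw [hG, Finset.mem_filter, Finset.mem_range]
        refine ⟨hjJ, lt_of_lt_of_le ?_ hpX⟩
        exact_mod_cast hj2
      rw [Finset.mem_image]
      refine ⟨(n, p), ?_, rfl⟩
      unfold pairs
      rw [Finset.mem_filter, Finset.mem_product, Finset.mem_Icc, Finset.mem_Ioc]
      refine ⟨⟨⟨hn1, hnX⟩, hj2, ?_⟩, hp, hdvd⟩
      calc p ≤ 2 ^ (j + 1) * P0 X := hj1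
        _ = 2 * (2 ^ j * P0 X) := by ring
    have hcard : midT f k (α - ε / 2) (β + ε / 2) X ≤
        ∑ j ∈ G, (pairs f k X (2 ^ j * P0 X)).card := by
      unfold midT
      calc _ ≤ (G.biUnion (fun j => (pairs f k X (2 ^ j * P0 X)).image Prod.fst)).card := by
              convert Finset.card_le_card hsub
        _ ≤ ∑ j ∈ G, ((pairs f k X (2 ^ j * P0 X)).image Prod.fst).card :=
              Finset.card_biUnion_le
        _ ≤ _ := Finset.sum_le_sum fun j _ => Finset.card_image_le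
    calc (midT f k (α - ε / 2) (β + ε / 2) X : ℝ)
        ≤ ((∑ j ∈ G, (pairs f k X (2 ^ j * P0 X)).card : ℕ) : ℝ) := by
          exact_mod_cast hcard
      _ = ∑ j ∈ G, ((pairs f k X (2 ^ j * P0 X)).card : ℝ) := by
          push_cast; rfl
      _ ≤ ∑ j ∈ G, (K * (X : ℝ) ^ (1 - η)) :=
          Finset.sum_le_sum fun j hj => by
            rw [hG, Finset.mem_filter] at hj
            exact hblock X hX j hj.2
      _ = (G.card : ℝ) * (K * (X : ℝ) ^ (1 - η)) := by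
          rw [Finset.sum_const, nsmul_eq_mul]
      _ ≤ ((J : ℝ) + 1) * (K * (X : ℝ) ^ (1 - η)) := by
          refine mul_le_mul_of_nonneg_right ?_ (by positivity)
          have h1 : G.card ≤ J + 1 := by
            rw [hG]
            refine (Finset.card_filter_le _ _).trans ?_
            rw [Finset.card_range]
          exact_mod_cast h1
  -- the number of blocks is `O(log X)`
  have hl2 : 0 < Real.log 2 := Real.log_pos (by norm_num)
  refine of_large _ (midT_triv f k (α - ε / 2) (β + ε / 2)) N1 (η / 2)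
    (((M : ℝ) + 1) / Real.log 2 * K * (2 / η)) (by positivity) ?_
  intro X hX _
  have hX2 : 2 ≤ X := le_trans (le_trans (le_max_right _ _) (le_max_left _ _)) hX
  have hXr : (2 : ℝ) ≤ X := by exact_mod_cast hX2
  have hX0' : (0 : ℝ) < X := by linarith
  have hlX : Real.log 2 ≤ Real.log X := Real.log_le_log (by norm_num) hXr
  have hl0 : 0 < Real.log X := lt_of_lt_of_le hl2 hlX
  have hJ : (Nat.log 2 (X ^ M) : ℝ) + 1 ≤ ((M : ℝ) + 1) / Real.log 2 * Real.log X := by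
    have h1 : (Nat.log 2 (X ^ M) : ℝ) ≤ (M * Real.log X) / Real.log 2 := by
      rw [le_div_iff₀ hl2]
      have h2 : 2 ^ Nat.log 2 (X ^ M) ≤ X ^ M :=
        Nat.pow_log_le_self 2 (pow_pos (by omega) _).ne'
      have h3 : ((2 : ℝ)) ^ Nat.log 2 (X ^ M) ≤ (X : ℝ) ^ M := by exact_mod_cast h2
      have h4 := Real.log_le_log (by positivity) h3
      rwa [Real.log_pow, Real.log_pow] at h4
    have h5 : 1 ≤ Real.log X / Real.log 2 := by
      rw [le_div_iff₀ hl2, one_mul]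
      exact hlX
    calc (Nat.log 2 (X ^ M) : ℝ) + 1 ≤ (M * Real.log X) / Real.log 2 + Real.log X / Real.log 2 := by
          linarith
      _ = ((M : ℝ) + 1) / Real.log 2 * Real.log X := by ring
  calc (midT f k (α - ε / 2) (β + ε / 2) X : ℝ)
      ≤ ((Nat.log 2 (X ^ M) : ℝ) + 1) * (K * (X : ℝ) ^ (1 - η)) := htail X hX
    _ ≤ (((M : ℝ) + 1) / Real.log 2 * Real.log X) * (K * (X : ℝ) ^ (1 - η)) :=
        mul_le_mul_of_nonneg_right hJ (by positivity)
    _ = ((M : ℝ) + 1) / Real.log 2 * K * (Real.log X * (X : ℝ) ^ (1 - η)) := by ring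
    _ ≤ ((M : ℝ) + 1) / Real.log 2 * K * ((2 / η) * (X : ℝ) ^ (1 - η / 2)) :=
        mul_le_mul_of_nonneg_left (log_pow_bound2 hη (by linarith)) (by positivity)
    _ = ((M : ℝ) + 1) / Real.log 2 * K * (2 / η) * (X : ℝ) ^ (1 - η / 2) := by ring

end Vale.Agent.P018.R2.H26
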