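import Vale.Agent.P018.H867P.MainP
import Vale.Agent.P018.R2.H26.Mid
import Vale.Agent.P018.R2.H26.Defs

/-!
# P018, H26: primes in ranges of exponents, the main theorems.
-/

namespace Vale.Agent.P018.R2.H26

open Polynomial Filter Topology Vale.Agent.P018.H867 Vale.Agent.P018.H867P

/-- **admissibility at the exponent `1`.** -/
theorem adm_binom (d k : ℕ) (hd : 3 ≤ d) (hk : 1 ≤ k)
    (h : d ^ d < (2 * d - 2).choose (d - 2) * k ^ d) : K2.Adm2 d k 1 := by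
  have hd0 : (0 : ℝ) < d := by exact_mod_cast (show 0 < d by omega)
  obtain ⟨c, hc⟩ : ∃ c : ℝ, c = 1 / (d : ℝ) * (k : ℝ) ^ d * ((2 * d - 2).choose (d - 2) : ℕ) :=
    ⟨_, rfl⟩
  have hr : (d : ℝ) ^ d < ((2 * d - 2).choose (d - 2) : ℕ) * (k : ℝ) ^ d := by exact_mod_cast h
  have h1 : 1 < (1 / (d : ℝ)) ^ (d - 1) * c := by
    have e1 : (1 / (d : ℝ)) ^ (d - 1) * c =
        (((2 * d - 2).choose (d - 2) : ℕ) * (k : ℝ) ^ d) / (d : ℝ) ^ d := by
      rw [hc]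
      have e2 : (d : ℝ) ^ d = (d : ℝ) ^ (d - 1) * d := by
        rw [← pow_succ]
        congr 1
        omega
      rw [e2, one_div, inv_pow]
      field_simp
    rw [e1, lt_div_iff₀ (by positivity), one_mul]
    exact hr
  have hcont : Continuous (fun b : ℝ => b ^ (d - 1) * c) := by fun_prop
  have hev : ∀ᶠ b in 𝓝 (1 / (d : ℝ)), 1 < b ^ (d - 1) * c :=
    hcont.continuousAt.eventually (lt_mem_nhds h1)
  have hpos : ∀ᶠ b in 𝓝 (1 / (d : ℝ)), 0 < b := lt_mem_nhds (by positivity)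
  have hlt : ∀ᶠ b in 𝓝[<] (1 / (d : ℝ)), b < 1 / (d : ℝ) := eventually_mem_nhdsWithin
  obtain ⟨b, hb1, hb2, hb3⟩ :=
    ((hev.filter_mono nhdsWithin_le_nhds).and ((hpos.filter_mono nhdsWithin_le_nhds).and hlt)).exists
  refine adm_of_last d k hd b hb2 hb3 (K3.crit_zero d k (d - 1) (by omega) hk (by omega) 1 b
    one_pos hb2 ?_)
  have e3 : b ^ (d - 1) * (1 / (d : ℝ)) * (k : ℝ) ^ (d - 1 + 1) *
      ((2 * (d - 1)).choose (d - 1 - 1) : ℕ) = b ^ (d - 1) * c := by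
    rw [hc, show d - 1 + 1 = d by omega, show 2 * (d - 1) = 2 * d - 2 by omega,
      show d - 1 - 1 = d - 2 by omega]
    ring
  rw [e3]
  exact hb1

/-- the sieve: the primes `p ≤ X` are used, and some of the larger ones. -/
theorem main_trunc (f : ℤ[X]) (hsq : Squarefree (f.map (Int.castRingHom ℚ))) (k : ℕ)
    (hk : 2 ≤ k) (hloc : ∀ p : ℕ, p.Prime → rho f (p ^ k) < p ^ k) {e : ℝ} (he : 0 < e)
    (he1 : e < 1) :
    ∃ δ C : ℝ, 0 < δ ∧ 0 ≤ C ∧ ∀ X : ℕ, 1 ≤ X → ∀ V : ℕ → Prop, (∀ p : ℕ, p ≤ X → V p) →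
      |(cB (BV (fun p n => (p : ℤ) ^ k ∣ f.eval (n : ℤ)) V) X : ℝ) - density f k * X| ≤
        C * (X : ℝ) ^ (1 - δ) +
          H867S.tB2 (BV (fun p n => (p : ℤ) ^ k ∣ f.eval (n : ℤ)) V) e X := by
  classical
  set B : ℕ → ℕ → Prop := fun p n => (p : ℤ) ^ k ∣ f.eval (n : ℤ) with hB
  have hper : ∀ p : ℕ, p.Prime → ∀ n, B p (n + p ^ k) ↔ B p n := by
    intro p _ n
    have h1 := per_of_dvd f (p ^ k) (p ^ k) n dvd_rfl
    simp only [hB]
    push_cast at h1 ⊢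
    exact h1
  obtain ⟨D, hD⟩ := sep_rho_bound f k (by omega) hsq
  have hrB : ∀ p : ℕ, rB B k p = rho f (p ^ k) := by
    intro p
    unfold rB rho
    refine card_filter_eq _ _ _ fun n => ?_
    simp only [hB]
    push_cast
    rfl
  have hdB : dB B k = density f k := by
    unfold dB density
    simp only [hrB]
  obtain ⟨δ, C, hδ, hC, h⟩ := abs_trunc (B := B) (K := k) hk hper (D := D) he he1
    (fun p hp => by rw [hrB]; exact hD p hp) (fun p hp => by rw [hrB]; exact hloc p hp)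
  refine ⟨δ, C, hδ, hC, fun X hX V hV => ?_⟩
  rw [← hdB]
  exact h X hX V hV

theorem rpow_min {x : ℝ} (hx : 1 ≤ x) {a b : ℝ} (h : a ≤ b) : x ^ (1 - b) ≤ x ^ (1 - a) :=
  Real.rpow_le_rpow_of_exponent_le hx (by linarith)

/-- the tail of the primes near `X`. -/
def MidPow (f : ℤ[X]) (k : ℕ) : Prop :=
  ∃ ε δ C : ℝ, 0 < ε ∧ ε < 1 ∧ 0 < δ ∧ 0 ≤ C ∧ ∀ X : ℕ, 1 ≤ X →
    (midT f k (1 - ε) (1 + ε) X : ℝ) ≤ C * (X : ℝ) ^ (1 - δ)

/-- admissibility of the exponent `1` gives the tail of the primes near `X`. -/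
theorem midPow_of_adm (f : ℤ[X]) (hirr : Irreducible (f.map (Int.castRingHom ℚ))) (k : ℕ)
    (hk : 2 ≤ k) (hd : 3 ≤ f.natDegree) (hadm : K2.Adm2 f.natDegree k 1) : MidPow f k := by
  obtain ⟨ε0, hε0, hP⟩ := pairsIn_near f hirr k hk hd 1 le_rfl hadm
  obtain ⟨ε, hε⟩ : ∃ ε : ℝ, ε = min ε0 (1 / 2) := ⟨_, rfl⟩
  have hεp : 0 < ε := by rw [hε]; exact lt_min hε0 (by norm_num)
  have hε1 : ε ≤ 1 / 2 := by rw [hε]; exact min_le_right _ _
  have hεε : ε ≤ ε0 := by rw [hε]; exact min_le_left _ _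
  have hP' : PairsIn f k (Set.Ioo (1 - ε) (1 + ε)) :=
    pairsIn_mono f k (Set.Ioo_subset_Ioo (by linarith) (by linarith)) hP
  obtain ⟨δ1, C1, hδ1, hC1, h1⟩ := mid_tail f k le_rfl le_rfl hεp hε1 hP'
  exact ⟨ε / 2, δ1, C1, by positivity, by linarith, hδ1, hC1, h1⟩

theorem midPow_of_tail (f : ℤ[X]) (k : ℕ) (h : TailPow f k) : MidPow f k := by
  classical
  obtain ⟨ε, δ, C, hε, hε1, hδ, hC, h⟩ := h
  refine ⟨ε, δ, C, hε, hε1, hδ, hC, fun X hX => le_trans ?_ (h X hX)⟩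
  have h1 : midT f k (1 - ε) (1 + ε) X ≤ tail2 f k ε X := by
    unfold midT tail2
    refine Finset.card_le_card fun n hn => ?_
    rw [Finset.mem_filter] at hn ⊢
    obtain ⟨hn1, p, hp, hXp, -, hdvd⟩ := hn
    exact ⟨hn1, p, hp, hXp, hdvd⟩
  exact_mod_cast h1

/-- the product of the local densities. -/
theorem density_spec (f : ℤ[X]) (hsq : Squarefree (f.map (Int.castRingHom ℚ))) (k : ℕ)
    (hk : 2 ≤ k) (hloc : ∀ p : ℕ, p.Prime → rho f (p ^ k) < p ^ k) :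
    Multipliable (fun p : Nat.Primes => 1 - (rho f ((p : ℕ) ^ k) : ℝ) / ((p : ℕ) : ℝ) ^ k) ∧
    0 < density f k := by
  classical
  set B : ℕ → ℕ → Prop := fun p n => (p : ℤ) ^ k ∣ f.eval (n : ℤ) with hB
  obtain ⟨D, hD⟩ := sep_rho_bound f k (by omega) hsq
  have hrB : ∀ p : ℕ, rB B k p = rho f (p ^ k) := by
    intro p
    unfold rB rho
    refine card_filter_eq _ _ _ fun n => ?_
    simp only [hB]
    push_cast
    rfl
  have hdB : dB B k = density f k := by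
    unfold dB density
    simp only [hrB]
  obtain ⟨h1, h2, -⟩ := dB_spec (B := B) (K := k) (D := (D : ℝ)) (Nat.cast_nonneg D)
    (fun p hp => by rw [hrB]; exact hloc p hp) (fun p hp => by
      have hp1 : (1 : ℝ) ≤ p := by exact_mod_cast hp.one_lt.le
      have hpK : (p : ℝ) ^ 2 ≤ (p : ℝ) ^ k := pow_le_pow_right₀ hp1 hk
      have hD' : (rB B k p : ℝ) ≤ D := by rw [hrB]; exact_mod_cast hD p hp
      have hp2 : (0 : ℝ) < (p : ℝ) ^ 2 := by positivity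
      calc (rB B k p : ℝ) / (p : ℝ) ^ k ≤ D / (p : ℝ) ^ k := by gcongr
        _ ≤ D / (p : ℝ) ^ 2 := by gcongr)
  rw [hdB] at h2
  simp only [hrB] at h1
  exact ⟨h1, h2⟩

/-- **(A)** the primes up to `X ^ (1 + δ)`. -/
theorem main_upTo (f : ℤ[X]) (hsq : Squarefree (f.map (Int.castRingHom ℚ))) (k : ℕ)
    (hk : 2 ≤ k) (hloc : ∀ p : ℕ, p.Prime → rho f (p ^ k) < p ^ k)
    (hmid : MidPow f k) :
    ∃ δ C : ℝ, 0 < δ ∧ ∀ X : ℕ, 1 ≤ X →
      |(countUpTo f k (1 + δ) X : ℝ) - density f k * X| ≤ C * (X : ℝ) ^ (1 - δ) ∧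
      |(countPF f k X : ℝ) - density f k * X| ≤
        C * (X : ℝ) ^ (1 - δ) + countAbove f k (1 + δ) X := by
  classical
  obtain ⟨ε, δ1, C1, hεp, hε1, hδ1, hC1, h1⟩ := hmid
  obtain ⟨δ2, C2, hδ2, hC2, h2⟩ := main_trunc f hsq k hk hloc (e := ε) hεp hε1
  obtain ⟨δ, hδ⟩ : ∃ δ : ℝ, δ = min ε (min δ1 δ2) := ⟨_, rfl⟩
  have g1 : δ ≤ ε := by rw [hδ]; exact min_le_left _ _
  have g2 : δ ≤ δ1 := by rw [hδ]; exact (min_le_right _ _).trans (min_le_left _ _)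
  have g3 : δ ≤ δ2 := by rw [hδ]; exact (min_le_right _ _).trans (min_le_right _ _)
  have hδ0 : 0 < δ := by rw [hδ]; exact lt_min hεp (lt_min hδ1 hδ2)
  refine ⟨δ, C2 + C1, hδ0, fun X hX => ?_⟩
  have hXr : (1 : ℝ) ≤ X := by exact_mod_cast hX
  have h3 := h2 X hX (fun p => (p : ℝ) ≤ (X : ℝ) ^ (1 + δ)) (fun p hp => by
    calc (p : ℝ) ≤ X := by exact_mod_cast hp
      _ = (X : ℝ) ^ (1 : ℝ) := (Real.rpow_one _).symm
      _ ≤ (X : ℝ) ^ (1 + δ) := Real.rpow_le_rpow_of_exponent_le hXr (by linarith))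
  have h4 : cB (BV (fun p n => (p : ℤ) ^ k ∣ f.eval (n : ℤ))
      (fun p => (p : ℝ) ≤ (X : ℝ) ^ (1 + δ))) X = countUpTo f k (1 + δ) X := by
    unfold cB countUpTo
    refine card_filter_eq _ _ _ fun n => ?_
    constructor
    · intro hn p hp hpX hdvd
      exact hn p hp ⟨hpX, hdvd⟩
    · intro hn p hp hb
      exact hn p hp hb.1 hb.2
  have h5 : H867S.tB2 (BV (fun p n => (p : ℤ) ^ k ∣ f.eval (n : ℤ))
      (fun p => (p : ℝ) ≤ (X : ℝ) ^ (1 + δ))) ε X ≤ midT f k (1 - ε) (1 + ε) X := by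
    unfold H867S.tB2 midT
    refine Finset.card_le_card fun n hn => ?_
    rw [Finset.mem_filter] at hn ⊢
    obtain ⟨hn1, p, hp, hXp, hpX, hdvd⟩ := hn
    exact ⟨hn1, p, hp, hXp,
      hpX.trans (Real.rpow_le_rpow_of_exponent_le hXr (by linarith)), hdvd⟩
  rw [h4] at h3
  have h6 : (H867S.tB2 (BV (fun p n => (p : ℤ) ^ k ∣ f.eval (n : ℤ))
      (fun p => (p : ℝ) ≤ (X : ℝ) ^ (1 + δ))) ε X : ℝ) ≤ C1 * (X : ℝ) ^ (1 - δ) := by
    calc _ ≤ (midT f k (1 - ε) (1 + ε) X : ℝ) := by exact_mod_cast h5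
      _ ≤ C1 * (X : ℝ) ^ (1 - δ1) := h1 X hX
      _ ≤ C1 * (X : ℝ) ^ (1 - δ) := mul_le_mul_of_nonneg_left (rpow_min hXr g2) hC1
  have h7 : C2 * (X : ℝ) ^ (1 - δ2) ≤ C2 * (X : ℝ) ^ (1 - δ) :=
    mul_le_mul_of_nonneg_left (rpow_min hXr g3) hC2
  have h11 : |(countUpTo f k (1 + δ) X : ℝ) - density f k * X| ≤
      (C2 + C1) * (X : ℝ) ^ (1 - δ) := by linarith
  refine ⟨h11, ?_⟩
  have h12 : countPF f k X ≤ countUpTo f k (1 + δ) X := by
    unfold countPF countUpTo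
    refine Finset.card_le_card fun n hn => ?_
    rw [Finset.mem_filter] at hn ⊢
    exact ⟨hn.1, fun p hp _ => hn.2 p hp⟩
  have h13 : countUpTo f k (1 + δ) X ≤ countPF f k X + countAbove f k (1 + δ) X := by
    unfold countPF countUpTo countAbove
    refine (Finset.card_le_card (t := _ ∪ _) ?_).trans (Finset.card_union_le _ _)
    intro n hn
    rw [Finset.mem_filter] at hn
    rw [Finset.mem_union, Finset.mem_filter, Finset.mem_filter]
    by_cases h : PowerFree k (f.eval (n : ℤ))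
    · exact Or.inl ⟨hn.1, h⟩
    · right
      unfold PowerFree at h
      push Not at h
      obtain ⟨p, hp, hdvd⟩ := h
      refine ⟨hn.1, p, hp, ?_, hdvd⟩
      by_contra hcon
      exact hn.2 p hp (not_lt.1 hcon) hdvd
  have h12' : (countPF f k X : ℝ) ≤ countUpTo f k (1 + δ) X := by exact_mod_cast h12
  have h13' : (countUpTo f k (1 + δ) X : ℝ) ≤ countPF f k X + countAbove f k (1 + δ) X := by
    exact_mod_cast h13
  have h14 : (0 : ℝ) ≤ countAbove f k (1 + δ) X := Nat.cast_nonneg _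
  rw [abs_le] at h11 ⊢
  constructor <;> linarith [h11.1, h11.2]

open Classical in
/-- the number of `1 ≤ n ≤ X` with `p ^ k ∣ f(n)` for some prime `p ≥ X ^ t`. -/
noncomputable def topT (f : ℤ[X]) (k : ℕ) (t : ℝ) (X : ℕ) : ℕ :=
  ((Finset.Icc 1 X).filter (fun n : ℕ => ∃ p : ℕ, p.Prime ∧ (X : ℝ) ^ t ≤ p ∧
    (p : ℤ) ^ k ∣ f.eval (n : ℤ))).card

/-- the tail from `X ^ t` on, when all exponents from `t` to `d / k` are admissible. -/
theorem top_tail (f : ℤ[X]) (hirr : Irreducible (f.map (Int.castRingHom ℚ))) (k : ℕ)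
    (hk : 2 ≤ k) (hd : 3 ≤ f.natDegree) (t : ℝ) (ht : 1 ≤ t) (htd : t ≤ (f.natDegree : ℝ) / k)
    (hadm : ∀ a : ℝ, t ≤ a → a ≤ (f.natDegree : ℝ) / k → K2.Adm2 f.natDegree k a) :
    ∃ δ C : ℝ, 0 < δ ∧ 0 ≤ C ∧ ∀ X : ℕ, 1 ≤ X →
      (topT f k t X : ℝ) ≤ C * (X : ℝ) ^ (1 - δ) := by
  classical
  obtain ⟨ε0, hε0, hP⟩ := pairsIn_Icc f hirr k hk hd t _ ht htd hadm
  obtain ⟨ε, hε⟩ : ∃ ε : ℝ, ε = min ε0 (1 / 2) := ⟨_, rfl⟩
  have hεp : 0 < ε := by rw [hε]; exact lt_min hε0 (by norm_num)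
  have hε1 : ε ≤ 1 / 2 := by rw [hε]; exact min_le_right _ _
  have hεε : ε ≤ ε0 := by rw [hε]; exact min_le_left _ _
  have hP' : PairsIn f k (Set.Ioo (t - ε) ((f.natDegree : ℝ) / k + ε)) :=
    pairsIn_mono f k (Set.Ioo_subset_Ioo (by linarith) (by linarith)) hP
  obtain ⟨δ1, C1, hδ1, hC1, h1⟩ := mid_tail f k ht htd hεp hε1 hP'
  obtain ⟨A, hA⟩ : ∃ A : ℕ, A = cSum f + 1 := ⟨_, rfl⟩
  have hk0 : (0 : ℝ) < k := by exact_mod_cast (show 0 < k by omega)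
  refine of_large (topT f k t) (fun X => ?_)
    (max 2 ⌈(A : ℝ) ^ (2 / ε)⌉₊) δ1 C1 hδ1 fun X hX hX1 => ?_
  · unfold topT
    refine (Finset.card_filter_le _ _).trans ?_
    simp
  have hXr : (2 : ℝ) ≤ X := by exact_mod_cast (le_trans (le_max_left _ _) hX)
  have hXp : (0 : ℝ) < X := by linarith
  have hXA : (A : ℝ) ^ (2 / ε) ≤ X :=
    (Nat.le_ceil _).trans (by exact_mod_cast le_trans (le_max_right _ _) hX)
  have hA' : (A : ℝ) ≤ (X : ℝ) ^ (ε / 2) := by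
    calc (A : ℝ) = ((A : ℝ) ^ (2 / ε)) ^ (ε / 2) := by
          rw [← Real.rpow_mul (Nat.cast_nonneg A)]
          rw [show 2 / ε * (ε / 2) = 1 by field_simp, Real.rpow_one]
      _ ≤ (X : ℝ) ^ (ε / 2) := Real.rpow_le_rpow (by positivity) hXA (by positivity)
  refine le_trans ?_ (h1 X hX1)
  have hsub : topT f k t X ≤ midT f k (t - ε / 2) ((f.natDegree : ℝ) / k + ε / 2) X := by
    unfold topT midT
    refine Finset.card_le_card fun n hn => ?_
    rw [Finset.mem_filter] at hn ⊢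
    obtain ⟨hn1, p, hp, hXp', hdvd⟩ := hn
    have hn2 := Finset.mem_Icc.1 hn1
    refine ⟨hn1, p, hp, lt_of_lt_of_le ?_ hXp', ?_, hdvd⟩
    · exact Real.rpow_lt_rpow_of_exponent_lt (by linarith) (by linarith)
    · have hne := eval_ne_zero_of_irreducible f hirr (by omega) (n : ℤ)
      have h3 : p ^ k ≤ (f.eval (n : ℤ)).natAbs := by
        have h2 := Int.natAbs_dvd_natAbs.2 hdvd
        rw [Int.natAbs_pow, Int.natAbs_natCast] at h2
        exact Nat.le_of_dvd (Int.natAbs_pos.2 hne) h2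
      have h4 : p ^ k ≤ A * X ^ f.natDegree := by
        refine h3.trans ((abs_eval_le f hX1 hn2.2).trans ?_)
        exact Nat.mul_le_mul_right _ (by omega)
      have h5 : (p : ℝ) ^ k ≤ A * (X : ℝ) ^ f.natDegree := by exact_mod_cast h4
      have hk1 : (1 : ℝ) ≤ k := by exact_mod_cast (show 1 ≤ k by omega)
      have h6 : (p : ℝ) ^ k ≤ ((X : ℝ) ^ ((f.natDegree : ℝ) / k + ε / 2)) ^ k := by
        refine h5.trans ?_
        rw [← Real.rpow_natCast (x := (X : ℝ) ^ ((f.natDegree : ℝ) / k + ε / 2)),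
          ← Real.rpow_mul hXp.le, add_mul, div_mul_cancel₀ _ hk0.ne', Real.rpow_add hXp,
          Real.rpow_natCast, mul_comm]
        refine mul_le_mul_of_nonneg_left (hA'.trans ?_) (by positivity)
        refine Real.rpow_le_rpow_of_exponent_le (by linarith) ?_
        nlinarith
      exact le_of_pow_le_pow_left₀ (by omega) (by positivity) h6
  exact_mod_cast hsub

/-- **(B)** all primes outside the range from `X ^ s` to `X ^ t`. -/
theorem main_out (f : ℤ[X]) (hirr : Irreducible (f.map (Int.castRingHom ℚ))) (k : ℕ)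
    (hk : 2 ≤ k) (hd : 3 ≤ f.natDegree) (hloc : ∀ p : ℕ, p.Prime → rho f (p ^ k) < p ^ k)
    (s t : ℝ) (hs : 1 ≤ s) (ht : 1 ≤ t) (htd : t ≤ (f.natDegree : ℝ) / k)
    (h1 : ∀ a : ℝ, 1 ≤ a → a ≤ s → K2.Adm2 f.natDegree k a)
    (h2 : ∀ a : ℝ, t ≤ a → a ≤ (f.natDegree : ℝ) / k → K2.Adm2 f.natDegree k a) :
    ∃ δ C : ℝ, 0 < δ ∧ ∀ X : ℕ, 1 ≤ X →
      |(countOut f k s t X : ℝ) - density f k * X| ≤ C * (X : ℝ) ^ (1 - δ) ∧
      |(countPF f k X : ℝ) - density f k * X| ≤ C * (X : ℝ) ^ (1 - δ) + countMid f k s t X := by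
  classical
  obtain ⟨ε0, hε0, hP⟩ := pairsIn_Icc f hirr k hk hd 1 s le_rfl hs h1
  obtain ⟨ε, hε⟩ : ∃ ε : ℝ, ε = min ε0 (1 / 2) := ⟨_, rfl⟩
  have hεp : 0 < ε := by rw [hε]; exact lt_min hε0 (by norm_num)
  have hε1 : ε ≤ 1 / 2 := by rw [hε]; exact min_le_right _ _
  have hεε : ε ≤ ε0 := by rw [hε]; exact min_le_left _ _
  have hP' : PairsIn f k (Set.Ioo (1 - ε) (s + ε)) :=
    pairsIn_mono f k (Set.Ioo_subset_Ioo (by linarith) (by linarith)) hP
  obtain ⟨δ1, C1, hδ1, hC1, h3⟩ := mid_tail f k le_rfl hs hεp hε1 hP'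
  obtain ⟨δ2, C2, hδ2, hC2, h4⟩ := main_trunc f hirr.squarefree k hk hloc (e := ε / 2) (by positivity)
    (by linarith)
  obtain ⟨δ3, C3, hδ3, hC3, h5⟩ := top_tail f hirr k hk hd t ht htd h2
  obtain ⟨δ, hδ⟩ : ∃ δ : ℝ, δ = min δ1 (min δ2 δ3) := ⟨_, rfl⟩
  have g1 : δ ≤ δ1 := by rw [hδ]; exact min_le_left _ _
  have g2 : δ ≤ δ2 := by rw [hδ]; exact (min_le_right _ _).trans (min_le_left _ _)
  have g3 : δ ≤ δ3 := by rw [hδ]; exact (min_le_right _ _).trans (min_le_right _ _)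
  have hδ0 : 0 < δ := by rw [hδ]; exact lt_min hδ1 (lt_min hδ2 hδ3)
  refine ⟨δ, C2 + C1 + C3, hδ0, fun X hX => ?_⟩
  have hXr : (1 : ℝ) ≤ X := by exact_mod_cast hX
  obtain ⟨V, hV⟩ : ∃ V : ℕ → Prop, V = fun p : ℕ => (p : ℝ) ≤ (X : ℝ) ^ s ∨ (X : ℝ) ^ t ≤ p :=
    ⟨_, rfl⟩
  have hVX : ∀ p : ℕ, p ≤ X → V p := by
    intro p hp
    rw [hV]
    left
    calc (p : ℝ) ≤ X := by exact_mod_cast hp
      _ = (X : ℝ) ^ (1 : ℝ) := (Real.rpow_one _).symm
      _ ≤ (X : ℝ) ^ s := Real.rpow_le_rpow_of_exponent_le hXr hs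
  have h6 := h4 X hX V hVX
  have h7 : cB (BV (fun p n => (p : ℤ) ^ k ∣ f.eval (n : ℤ)) V) X = countOut f k s t X := by
    unfold cB countOut
    refine card_filter_eq _ _ _ fun n => ?_
    constructor
    · intro hn p hp hdvd
      have h8 := hn p hp
      by_contra hcon
      refine h8 ⟨?_, hdvd⟩
      rw [hV]
      by_cases h9 : (p : ℝ) ≤ (X : ℝ) ^ s
      · exact Or.inl h9
      · right
        by_contra h10
        exact hcon ⟨not_le.1 h9, not_le.1 h10⟩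
    · intro hn p hp hb
      obtain ⟨hbV, hdvd⟩ := hb
      obtain ⟨h8, h9⟩ := hn p hp hdvd
      rw [hV] at hbV
      rcases hbV with h | h
      · exact absurd h8 (not_lt.2 h)
      · exact absurd h9 (not_lt.2 h)
  have h8 : H867S.tB2 (BV (fun p n => (p : ℤ) ^ k ∣ f.eval (n : ℤ)) V) (ε / 2) X ≤
      midT f k (1 - ε / 2) (s + ε / 2) X + topT f k t X := by
    unfold H867S.tB2 midT topT
    refine (Finset.card_le_card (t := _ ∪ _) ?_).trans (Finset.card_union_le _ _)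
    intro n hn
    rw [Finset.mem_filter] at hn
    obtain ⟨hn1, p, hp, hXp, hpV, hdvd⟩ := hn
    rw [Finset.mem_union, Finset.mem_filter, Finset.mem_filter]
    rw [hV] at hpV
    rcases hpV with h | h
    · left
      exact ⟨hn1, p, hp, hXp,
        h.trans (Real.rpow_le_rpow_of_exponent_le hXr (by linarith)), hdvd⟩
    · right
      exact ⟨hn1, p, hp, h, hdvd⟩
  rw [h7] at h6
  have h9 : (H867S.tB2 (BV (fun p n => (p : ℤ) ^ k ∣ f.eval (n : ℤ)) V) (ε / 2) X : ℝ) ≤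
      C1 * (X : ℝ) ^ (1 - δ) + C3 * (X : ℝ) ^ (1 - δ) := by
    calc _ ≤ (midT f k (1 - ε / 2) (s + ε / 2) X : ℝ) + topT f k t X := by exact_mod_cast h8
      _ ≤ C1 * (X : ℝ) ^ (1 - δ1) + C3 * (X : ℝ) ^ (1 - δ3) := add_le_add (h3 X hX) (h5 X hX)
      _ ≤ _ := add_le_add (mul_le_mul_of_nonneg_left (rpow_min hXr g1) hC1)
        (mul_le_mul_of_nonneg_left (rpow_min hXr g3) hC3)
  have h10 : C2 * (X : ℝ) ^ (1 - δ2) ≤ C2 * (X : ℝ) ^ (1 - δ) :=
    mul_le_mul_of_nonneg_left (rpow_min hXr g2) hC2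
  have h11 : |(countOut f k s t X : ℝ) - density f k * X| ≤
      (C2 + C1 + C3) * (X : ℝ) ^ (1 - δ) := by linarith
  refine ⟨h11, ?_⟩
  -- the number of `k`-free values
  have h12 : countPF f k X ≤ countOut f k s t X := by
    unfold countPF countOut
    refine Finset.card_le_card fun n hn => ?_
    rw [Finset.mem_filter] at hn ⊢
    exact ⟨hn.1, fun p hp hdvd => absurd hdvd (hn.2 p hp)⟩
  have h13 : countOut f k s t X ≤ countPF f k X + countMid f k s t X := by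
    unfold countPF countOut countMid
    refine (Finset.card_le_card (t := _ ∪ _) ?_).trans (Finset.card_union_le _ _)
    intro n hn
    rw [Finset.mem_filter] at hn
    rw [Finset.mem_union, Finset.mem_filter, Finset.mem_filter]
    by_cases h : PowerFree k (f.eval (n : ℤ))
    · exact Or.inl ⟨hn.1, h⟩
    · right
      unfold PowerFree at h
      push Not at h
      obtain ⟨p, hp, hdvd⟩ := h
      obtain ⟨h1, h2⟩ := hn.2 p hp hdvd
      exact ⟨hn.1, p, hp, h1, h2, hdvd⟩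
  have h12' : (countPF f k X : ℝ) ≤ countOut f k s t X := by exact_mod_cast h12
  have h13' : (countOut f k s t X : ℝ) ≤ countPF f k X + countMid f k s t X := by
    exact_mod_cast h13
  have h14 : (0 : ℝ) ≤ countMid f k s t X := Nat.cast_nonneg _
  rw [abs_le] at h11 ⊢
  constructor <;> linarith [h11.1, h11.2]

end Vale.Agent.P018.R2.H26
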