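import Vale.Agent.P018.R2.H26.Main

/-!
# P018, H26: all exponents admissible gives the predicted asymptotic, with a power saving.
-/

namespace Vale.Agent.P018.R2.H26

open Polynomial Filter Topology Vale.Agent.P018.H867 Vale.Agent.P018.H867P

/-- all exponents are admissible: the tail is small. -/
theorem tail_of_adm (f : ℤ[X]) (hirr : Irreducible (f.map (Int.castRingHom ℚ))) (k : ℕ)
    (hk : 2 ≤ k) (hd : 3 ≤ f.natDegree) (hkd : k < f.natDegree)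
    (hadm : ∀ a : ℝ, 1 ≤ a → a ≤ (f.natDegree : ℝ) / k → K2.Adm2 f.natDegree k a) :
    TailPow f k := by
  have hk0 : (0 : ℝ) < k := by exact_mod_cast (by omega : 0 < k)
  have hone : K2.Adm2 f.natDegree k 1 := by
    refine hadm 1 le_rfl ?_
    rw [le_div_iff₀ hk0, one_mul]
    exact_mod_cast hkd.le
  have hnear : NearOne f k := nearOne_of_adm f hirr k hk hd hone
  exact tailPow_of_hpp f hirr k hk (by omega) (hpp_of_hp f k
    (hp_of_fin f k hk hkd fun a ha ha2 => K2.fin_near2 f hirr k hk hkd a ha (hadm a ha ha2)) hnear)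

/-- the asymptotic from the bound for the tail. -/
theorem main_of_tail (f : ℤ[X]) (hsq : Squarefree (f.map (Int.castRingHom ℚ))) (k : ℕ)
    (hk : 2 ≤ k) (hloc : ∀ p : ℕ, p.Prime → rho f (p ^ k) < p ^ k) (hT : TailPow f k) :
    Multipliable (fun p : Nat.Primes => 1 - (rho f ((p : ℕ) ^ k) : ℝ) / ((p : ℕ) : ℝ) ^ k) ∧
    0 < density f k ∧
    ∃ δ C : ℝ, 0 < δ ∧ ∀ X : ℕ, 1 ≤ X →
      |(countPF f k X : ℝ) - density f k * X| ≤ C * (X : ℝ) ^ (1 - δ) := by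
  classical
  obtain ⟨g1, g2⟩ := density_spec f hsq k hk hloc
  refine ⟨g1, g2, ?_⟩
  obtain ⟨ε, δ1, C1, hεp, hε1, hδ1, hC1, h1⟩ := hT
  obtain ⟨δ2, C2, hδ2, hC2, h2⟩ := main_trunc f hsq k hk hloc (e := ε) hεp hε1
  obtain ⟨δ, hδ⟩ : ∃ δ : ℝ, δ = min δ1 δ2 := ⟨_, rfl⟩
  have g2 : δ ≤ δ1 := by rw [hδ]; exact min_le_left _ _
  have g3 : δ ≤ δ2 := by rw [hδ]; exact min_le_right _ _
  have hδ0 : 0 < δ := by rw [hδ]; exact lt_min hδ1 hδ2
  refine ⟨δ, C2 + C1, hδ0, fun X hX => ?_⟩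
  have hXr : (1 : ℝ) ≤ X := by exact_mod_cast hX
  have h3 := h2 X hX (fun _ => True) (fun _ _ => trivial)
  have h4 : cB (BV (fun p n => (p : ℤ) ^ k ∣ f.eval (n : ℤ)) (fun _ => True)) X =
      countPF f k X := by
    unfold cB countPF
    refine card_filter_eq _ _ _ fun n => ?_
    constructor
    · intro hn p hp hdvd
      exact hn p hp ⟨trivial, hdvd⟩
    · intro hn p hp hb
      exact hn p hp hb.2
  have h5 : H867S.tB2 (BV (fun p n => (p : ℤ) ^ k ∣ f.eval (n : ℤ)) (fun _ => True)) ε X ≤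
      tail2 f k ε X := by
    unfold H867S.tB2 tail2
    refine Finset.card_le_card fun n hn => ?_
    rw [Finset.mem_filter] at hn ⊢
    obtain ⟨hn1, p, hp, hXp, -, hdvd⟩ := hn
    exact ⟨hn1, p, hp, hXp, hdvd⟩
  rw [h4] at h3
  have h6 : (H867S.tB2 (BV (fun p n => (p : ℤ) ^ k ∣ f.eval (n : ℤ)) (fun _ => True)) ε X : ℝ) ≤
      C1 * (X : ℝ) ^ (1 - δ) := by
    calc _ ≤ (tail2 f k ε X : ℝ) := by exact_mod_cast h5
      _ ≤ C1 * (X : ℝ) ^ (1 - δ1) := h1 X hX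
      _ ≤ C1 * (X : ℝ) ^ (1 - δ) := mul_le_mul_of_nonneg_left (rpow_min hXr g2) hC1
  have h7 : C2 * (X : ℝ) ^ (1 - δ2) ≤ C2 * (X : ℝ) ^ (1 - δ) :=
    mul_le_mul_of_nonneg_left (rpow_min hXr g3) hC2
  linarith

/-- **all exponents admissible: the predicted asymptotic.** -/
theorem main_pair (f : ℤ[X]) (hirr : Irreducible (f.map (Int.castRingHom ℚ))) (k : ℕ)
    (hk : 2 ≤ k) (hd : 3 ≤ f.natDegree) (hkd : k < f.natDegree)
    (hloc : ∀ p : ℕ, p.Prime → rho f (p ^ k) < p ^ k)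
    (hadm : ∀ a : ℝ, 1 ≤ a → a ≤ (f.natDegree : ℝ) / k → K2.Adm2 f.natDegree k a) :
    Multipliable (fun p : Nat.Primes => 1 - (rho f ((p : ℕ) ^ k) : ℝ) / ((p : ℕ) : ℝ) ^ k) ∧
    0 < density f k ∧
    ∃ δ C : ℝ, 0 < δ ∧ ∀ X : ℕ, 1 ≤ X →
      |(countPF f k X : ℝ) - density f k * X| ≤ C * (X : ℝ) ^ (1 - δ) :=
  main_of_tail f hirr.squarefree k hk hloc (tail_of_adm f hirr k hk hd hkd hadm)

end Vale.Agent.P018.R2.H26
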