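import Vale.Agent.P018.Base

/-! # P018, H26: the list of the pairs (largest degree, exponent). -/

namespace Vale.Agent.P018.R2.H26

/-- pairs `(D, k)`: all degrees up to `D` are treated, at the exponent `k`. -/
def maxDeg : List (ℕ × ℕ) :=
  [(26, 9), (33, 11), (37, 12), (40, 13), (44, 14), (48, 15), (52, 16), (55, 17), (59, 18),
   (63, 19), (67, 20), (71, 21), (74, 22), (77, 23), (81, 24)]

end Vale.Agent.P018.R2.H26
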