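import Vale.Agent.P018.H867R.Fin
import Vale.Agent.P018.R2.H26.Pairs
import Vale.Agent.P018.R2.H26.PairsDefs
import Vale.Agent.P018.R2.H677.MuAll

/-!
# P018, H26: new pairs (degree, exponent), assembly.
-/

namespace Vale.Agent.P018.R2.H26

open Polynomial Filter Topology Vale.Agent.P018.H867 Vale.Agent.P018.H867P
open Vale.Agent.P018.R2.H677 (InNew newBase adm_new)

/-- the check for one entry `(D, k)` of the list: `(D, k)` is one of the tables, or all degrees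
below `71` are in the old range and those from `71` to `D` come from the table `(71, 21)`. -/
theorem maxDeg_ok : ∀ e ∈ maxDeg, 2 ≤ e.2 ∧
    (e ∈ newBase ∨ (70 * 2 + 12 ≤ 7 * e.2 ∧ 21 * e.1 ≤ e.2 * 71)) := by
  decide +kernel

theorem maxDeg_new (e : ℕ × ℕ) (he : e ∈ maxDeg) (d : ℕ) (hd : d ≤ e.1) :
    InNew d e.2 ∨ 2 * d + 12 ≤ 7 * e.2 := by
  obtain ⟨-, h | ⟨h1, h2⟩⟩ := maxDeg_ok e he
  · exact Or.inl ⟨e, h, Or.inl ⟨hd, rfl⟩⟩
  · rcases lt_or_ge d 71 with h | h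
    · right
      omega
    · left
      refine ⟨(71, 21), by simp [newBase], Or.inr ⟨h, ?_⟩⟩
      simp only
      omega

/-- the tail for the pairs of the list. -/
theorem tail_maxDeg (e : ℕ × ℕ) (he : e ∈ maxDeg) (f : ℤ[X])
    (hirr : Irreducible (f.map (Int.castRingHom ℚ))) (hd : f.natDegree ≤ e.1) :
    TailPow f e.2 := by
  have hk := (maxDeg_ok e he).1
  rcases lt_or_ge f.natDegree (2 * e.2) with h | h
  · exact tailPow_irr f hirr e.2 hk (Or.inr (Or.inl h))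
  rcases maxDeg_new e he f.natDegree hd with h1 | h1
  · exact tail_of_adm f hirr e.2 hk (by omega) (by omega)
      fun a h2 h3 => adm_new f.natDegree e.2 (by omega) (by omega) h1 a h2 h3
  · exact tailPow_irr f hirr e.2 hk (Or.inr (Or.inr (Or.inl h1)))

/-- **the pairs of the list.** -/
theorem main_maxDeg (e : ℕ × ℕ) (he : e ∈ maxDeg) (f : ℤ[X])
    (hirr : Irreducible (f.map (Int.castRingHom ℚ))) (hd : f.natDegree ≤ e.1)
    (hloc : ∀ p : ℕ, p.Prime → rho f (p ^ e.2) < p ^ e.2) :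
    Multipliable (fun p : Nat.Primes =>
      1 - (rho f ((p : ℕ) ^ e.2) : ℝ) / ((p : ℕ) : ℝ) ^ e.2) ∧
    0 < density f e.2 ∧
    ∃ δ C : ℝ, 0 < δ ∧ ∀ X : ℕ, 1 ≤ X →
      |(countPF f e.2 X : ℝ) - density f e.2 * X| ≤ C * (X : ℝ) ^ (1 - δ) :=
  main_of_tail f hirr.squarefree e.2 (maxDeg_ok e he).1 hloc (tail_maxDeg e he f hirr hd)

end Vale.Agent.P018.R2.H26
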