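import Vale.Agent.P018.R2.H26.Main

/-!
# P018, H26: the primes near `X`, for polynomials without multiple factors.
-/

namespace Vale.Agent.P018.R2.H26

open Polynomial Filter Topology Vale.Agent.P018.H867 Vale.Agent.P018.H867P

theorem midT_split (f A B u v : ℤ[X]) (R c : ℤ) (hR : R ≠ 0) (hAB : A * B = C c * f)
    (hbez : u * A + v * B = C R) (k X : ℕ) (s t : ℝ) (hX : (R.natAbs : ℝ) ≤ (X : ℝ) ^ s) :
    midT f k s t X ≤ midT A k s t X + midT B k s t X := by
  classical
  unfold midT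
  refine (Finset.card_le_card (t := _ ∪ _) ?_).trans (Finset.card_union_le _ _)
  intro n hn
  rw [Finset.mem_filter] at hn
  obtain ⟨hnI, p, hp, hXp, hpX, hdvd⟩ := hn
  rw [Finset.mem_union, Finset.mem_filter, Finset.mem_filter]
  have hpp : Prime (p : ℤ) := Nat.prime_iff_prime_int.mp hp
  have h1 : (p : ℤ) ^ k ∣ A.eval (n : ℤ) * B.eval (n : ℤ) := by
    have h2 : A.eval (n : ℤ) * B.eval (n : ℤ) = c * f.eval (n : ℤ) := by
      have h3 := congrArg (Polynomial.eval (n : ℤ)) hAB
      simpa using h3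
    rw [h2]
    exact Dvd.dvd.mul_left hdvd c
  by_cases hA : (p : ℤ) ∣ A.eval (n : ℤ)
  · by_cases hB : (p : ℤ) ∣ B.eval (n : ℤ)
    · exfalso
      have h4 : (u * A + v * B).eval (n : ℤ) = R := by rw [hbez]; simp
      rw [eval_add, eval_mul, eval_mul] at h4
      have h5 : (p : ℤ) ∣ R := by
        rw [← h4]
        exact dvd_add (Dvd.dvd.mul_left hA _) (Dvd.dvd.mul_left hB _)
      have h6 : p ∣ R.natAbs := Int.natCast_dvd.mp h5
      have h7 := Nat.le_of_dvd (Int.natAbs_pos.mpr hR) h6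
      have h8 : (p : ℝ) ≤ R.natAbs := by exact_mod_cast h7
      linarith
    · left
      refine ⟨hnI, p, hp, hXp, hpX, ?_⟩
      exact (IsCoprime.pow_left ((Prime.coprime_iff_not_dvd hpp).mpr hB)).dvd_of_dvd_mul_right h1
  · right
    refine ⟨hnI, p, hp, hXp, hpX, ?_⟩
    exact (IsCoprime.pow_left ((Prime.coprime_iff_not_dvd hpp).mpr hA)).dvd_of_dvd_mul_left h1

theorem midT_mono (f : ℤ[X]) (k : ℕ) {ε ε' : ℝ} (h : ε ≤ ε') {X : ℕ} (hX : 1 ≤ X) :
    midT f k (1 - ε) (1 + ε) X ≤ midT f k (1 - ε') (1 + ε') X := by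
  classical
  have hXr : (1 : ℝ) ≤ X := by exact_mod_cast hX
  unfold midT
  apply Finset.card_le_card
  intro n hn
  rw [Finset.mem_filter] at hn ⊢
  obtain ⟨hnI, p, hp, hXp, hpX, hd⟩ := hn
  exact ⟨hnI, p, hp,
    lt_of_le_of_lt (Real.rpow_le_rpow_of_exponent_le hXr (by linarith)) hXp,
    hpX.trans (Real.rpow_le_rpow_of_exponent_le hXr (by linarith)), hd⟩

theorem midPow_split (f A B u v : ℤ[X]) (R c : ℤ) (hR : R ≠ 0) (hAB : A * B = C c * f)
    (hbez : u * A + v * B = C R) (k : ℕ) (hA : MidPow A k) (hB : MidPow B k) :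
    MidPow f k := by
  obtain ⟨ε1, δ1, C1, hε1, hε1', hδ1, hC1, h1⟩ := hA
  obtain ⟨ε2, δ2, C2, hε2, hε2', hδ2, hC2, h2⟩ := hB
  obtain ⟨ε, hε⟩ : ∃ ε : ℝ, ε = min ε1 ε2 := ⟨_, rfl⟩
  have hε0 : 0 < ε := by rw [hε]; exact lt_min hε1 hε2
  have hε1'' : ε < 1 := by rw [hε]; exact lt_of_le_of_lt (min_le_left _ _) hε1'
  have e1 : ε ≤ ε1 := by rw [hε]; exact min_le_left _ _
  have e2 : ε ≤ ε2 := by rw [hε]; exact min_le_right _ _
  obtain ⟨δ', C', hδ', hC', h⟩ := of_large (midT f k (1 - ε) (1 + ε))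
    (midT_triv f k (1 - ε) (1 + ε)) ⌈(R.natAbs : ℝ) ^ (1 / (1 - ε))⌉₊ (min δ1 δ2) (C1 + C2)
    (lt_min hδ1 hδ2) (by
    intro X hX hX1
    have hXr : (1 : ℝ) ≤ X := by exact_mod_cast hX1
    have hRX : (R.natAbs : ℝ) ≤ (X : ℝ) ^ (1 - ε) := by
      have h3 : (R.natAbs : ℝ) ^ (1 / (1 - ε)) ≤ X := (Nat.le_ceil _).trans (by exact_mod_cast hX)
      calc (R.natAbs : ℝ) = ((R.natAbs : ℝ) ^ (1 / (1 - ε))) ^ (1 - ε) := by
            rw [← Real.rpow_mul (by positivity), one_div, inv_mul_cancel₀ (by linarith),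
              Real.rpow_one]
        _ ≤ (X : ℝ) ^ (1 - ε) := Real.rpow_le_rpow (by positivity) h3 (by linarith)
    have h3 := midT_split f A B u v R c hR hAB hbez k X (1 - ε) (1 + ε) hRX
    have h4 : (midT f k (1 - ε) (1 + ε) X : ℝ) ≤
        midT A k (1 - ε) (1 + ε) X + midT B k (1 - ε) (1 + ε) X := by exact_mod_cast h3
    have h5 : (midT A k (1 - ε) (1 + ε) X : ℝ) ≤ C1 * (X : ℝ) ^ (1 - min δ1 δ2) := by
      refine le_trans (by exact_mod_cast midT_mono A k e1 hX1) ((h1 X hX1).trans ?_)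
      exact mul_le_mul_of_nonneg_left (rpow_min hXr (min_le_left δ1 δ2)) hC1
    have h6 : (midT B k (1 - ε) (1 + ε) X : ℝ) ≤ C2 * (X : ℝ) ^ (1 - min δ1 δ2) := by
      refine le_trans (by exact_mod_cast midT_mono B k e2 hX1) ((h2 X hX1).trans ?_)
      exact mul_le_mul_of_nonneg_left (rpow_min hXr (min_le_right δ1 δ2)) hC2
    rw [add_mul]
    linarith)
  exact ⟨ε, δ', C', hε0, hε1'', hδ', hC', h⟩

/-- induction on the degree, for polynomials without multiple factors. -/
theorem midPow_sep (k : ℕ)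
    (hQ : ∀ f : ℤ[X], Irreducible (f.map (Int.castRingHom ℚ)) → MidPow f k)
    (hk : 2 ≤ k) : ∀ (N : ℕ) (f : ℤ[X]), f.natDegree ≤ N → Squarefree (f.map (Int.castRingHom ℚ)) →
    MidPow f k := by
  intro N
  induction N with
  | zero =>
    intro f hN hsq
    have hf0 : f ≠ 0 := by
      rintro rfl
      simp at hsq
    exact midPow_of_tail f k (tailPow_gt f hf0 k (by omega))
  | succ N ih =>
    intro f hN hsq
    have hf0 : f ≠ 0 := by
      rintro rfl
      simp at hsq
    have hinj : Function.Injective (Polynomial.map (Int.castRingHom ℚ)) :=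
      Polynomial.map_injective _ (Int.cast_injective)
    have hdegmap : ∀ g : ℤ[X], (g.map (Int.castRingHom ℚ)).natDegree = g.natDegree := fun g =>
      natDegree_map_eq_of_injective (Int.cast_injective) g
    have hm0 : f.map (Int.castRingHom ℚ) ≠ 0 := fun h => hf0 (hinj (by simpa using h))
    rcases Nat.eq_zero_or_pos f.natDegree with hd0 | hd0
    · exact midPow_of_tail f k (tailPow_gt f hf0 k (by omega))
    by_cases hirr : Irreducible (f.map (Int.castRingHom ℚ))
    · exact hQ f hirr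
    have hnu : ¬ IsUnit (f.map (Int.castRingHom ℚ)) := by
      intro h
      have h1 := natDegree_eq_zero_of_isUnit h
      rw [hdegmap] at h1
      omega
    obtain ⟨a, b, ha, hb, hab⟩ : ∃ a b : ℚ[X], ¬ IsUnit a ∧ ¬ IsUnit b ∧
        f.map (Int.castRingHom ℚ) = a * b := by
      by_contra hcon
      apply hirr
      refine ⟨hnu, fun a b hab => ?_⟩
      by_contra h
      push Not at h
      exact hcon ⟨a, b, h.1, h.2, hab⟩
    have ha0 : a ≠ 0 := by
      rintro rfl
      exact hm0 (by rw [hab, zero_mul])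
    have hb0 : b ≠ 0 := by
      rintro rfl
      exact hm0 (by rw [hab, mul_zero])
    have hdega : 0 < a.natDegree := by
      by_contra h
      have h0 : a.natDegree = 0 := by omega
      exact ha (isUnit_iff_degree_eq_zero.2 (by rw [degree_eq_natDegree ha0, h0]; rfl))
    have hdegb : 0 < b.natDegree := by
      by_contra h
      have h0 : b.natDegree = 0 := by omega
      exact hb (isUnit_iff_degree_eq_zero.2 (by rw [degree_eq_natDegree hb0, h0]; rfl))
    have hdeg : f.natDegree = a.natDegree + b.natDegree := by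
      rw [← hdegmap f, hab, natDegree_mul ha0 hb0]
    have hcop : IsCoprime a b := by
      have h1 : Squarefree (a * b) := hab ▸ hsq
      exact (squarefree_mul_iff.1 h1).1.isCoprime
    obtain ⟨A, s, hs, hA⟩ := sv_normal a
    obtain ⟨B, t, ht, hB⟩ := sv_normal b
    have hsu : IsUnit (C (s : ℚ)) := isUnit_C.2 (isUnit_iff_ne_zero.2 (by exact_mod_cast hs))
    have htu : IsUnit (C (t : ℚ)) := isUnit_C.2 (isUnit_iff_ne_zero.2 (by exact_mod_cast ht))
    have hAa : Associated (A.map (Int.castRingHom ℚ)) a := by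
      rw [hA]
      exact (associated_unit_mul_left a _ hsu)
    have hBb : Associated (B.map (Int.castRingHom ℚ)) b := by
      rw [hB]
      exact (associated_unit_mul_left b _ htu)
    have hdA : A.natDegree = a.natDegree := by
      rw [← hdegmap A, hA, natDegree_mul hsu.ne_zero ha0]
      simp
    have hdB : B.natDegree = b.natDegree := by
      rw [← hdegmap B, hB, natDegree_mul htu.ne_zero hb0]
      simp
    have hsqab : Squarefree a ∧ Squarefree b := by
      have h1 : Squarefree (a * b) := hab ▸ hsq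
      exact ⟨(squarefree_mul_iff.1 h1).2.1, (squarefree_mul_iff.1 h1).2.2⟩
    have hcopAB : IsCoprime (A.map (Int.castRingHom ℚ)) (B.map (Int.castRingHom ℚ)) := by
      rw [hA, hB]
      exact (isCoprime_mul_unit_left_left hsu _ _).2 ((isCoprime_mul_unit_left_right htu _ _).2 hcop)
    obtain ⟨u, v, R, hR, hbez⟩ := int_bezout A B hcopAB
    have hABf : A * B = C (s * t) * f := by
      apply hinj
      simp only [Polynomial.map_mul, Polynomial.map_C, hA, hB, hab]
      simp only [eq_intCast, Int.cast_mul, C_mul]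
      ring
    exact midPow_split f A B u v R (s * t) hR hABf hbez k
      (ih A (by omega) ((hAa.symm.squarefree_iff).1 hsqab.1))
      (ih B (by omega) ((hBb.symm.squarefree_iff).1 hsqab.2))

end Vale.Agent.P018.R2.H26
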